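import Vale.Agent.Lib.P329.Closure

/-!
# Automata that become partially ordered after deleting one state
-/

namespace Vale.Agent.Lib.P329

variable {α Ω : Type} (δ : Ω → α → Ω) (s₀ : Ω)

/-- the state reached from `x` by reading `w` -/
def run (x : Ω) (w : List α) : Ω := w.foldl δ x

theorem run_nil (x : Ω) : run δ x [] = x := rfl

theorem run_cons (x : Ω) (a : α) (w : List α) : run δ x (a :: w) = run δ (δ x a) w := rfl

theorem run_append (x : Ω) (u v : List α) : run δ x (u ++ v) = run δ (run δ x u) v := by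
  unfold run; rw [List.foldl_append]

/-- `w` labels a path from `p` to `q` which does not meet `s₀` after its starting point -/
def Avoid : Ω → Ω → List α → Prop
  | p, q, [] => p = q
  | p, q, a :: w => δ p a ≠ s₀ ∧ Avoid (δ p a) q w

/-- `w` labels a nonempty path from `p` which meets `s₀` exactly at its end point
(the starting point not being counted) -/
def Hit : Ω → List α → Prop
  | _, [] => False
  | p, a :: w => (δ p a = s₀ ∧ w = []) ∨ (δ p a ≠ s₀ ∧ Hit (δ p a) w)

theorem Avoid.run_eq {p q : Ω} {w : List α} (h : Avoid δ s₀ p q w) : run δ p w = q := by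
  induction w generalizing p with
  | nil => exact h
  | cons a w ih => exact ih h.2

theorem Hit.run_eq {p : Ω} {w : List α} (h : Hit δ s₀ p w) : run δ p w = s₀ := by
  induction w generalizing p with
  | nil => exact h.elim
  | cons a w ih =>
    rcases h with ⟨h1, rfl⟩ | ⟨-, h2⟩
    · exact h1
    · exact ih h2

theorem Hit.ne_nil {p : Ω} {w : List α} (h : Hit δ s₀ p w) : w ≠ [] := by
  cases w with
  | nil => exact h.elim
  | cons a w => simp

theorem avoid_or_hit (p : Ω) (w : List α) :
    Avoid δ s₀ p (run δ p w) w ∨ ∃ f w', w = f ++ w' ∧ Hit δ s₀ p f := by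
  induction w generalizing p with
  | nil => exact Or.inl rfl
  | cons a w ih =>
    by_cases ha : δ p a = s₀
    · exact Or.inr ⟨[a], w, rfl, Or.inl ⟨ha, rfl⟩⟩
    · rcases ih (δ p a) with h | ⟨f, w', rfl, hf⟩
      · exact Or.inl ⟨ha, h⟩
      · exact Or.inr ⟨a :: f, w', rfl, Or.inr ⟨ha, hf⟩⟩

/-- the language of avoiding paths -/
def LA (p q : Ω) : Language α := {w | Avoid δ s₀ p q w}

/-- the language of first hitting paths -/
def LH (p : Ω) : Language α := {w | Hit δ s₀ p w}

theorem run_kstar {u : List α} (hu : u ∈ KStar.kstar (LH δ s₀ s₀)) : run δ s₀ u = s₀ := by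
  obtain ⟨S, rfl, hS⟩ := Language.mem_kstar.1 hu
  clear hu
  induction S with
  | nil => rfl
  | cons k S ih =>
    rw [List.flatten_cons, run_append, Hit.run_eq δ s₀ (hS k (by simp))]
    exact ih (fun y hy => hS y (by simp [hy]))

theorem cons_kstar {L : Language α} {k u : List α} (hk : k ∈ L) (hu : u ∈ KStar.kstar L) :
    k ++ u ∈ KStar.kstar L := by
  obtain ⟨S, rfl, hS⟩ := Language.mem_kstar.1 hu
  refine Language.mem_kstar.2 ⟨k :: S, by simp, ?_⟩
  intro y hy
  rcases List.mem_cons.1 hy with rfl | hy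
  · exact hk
  · exact hS y hy

/-- decomposition of all paths from `p` to `q` according to the visits of `s₀` -/
theorem run_eq_iff (p q : Ω) (w : List α) :
    run δ p w = q ↔ w ∈ LA δ s₀ p q + LH δ s₀ p * KStar.kstar (LH δ s₀ s₀) * LA δ s₀ s₀ q := by
  constructor
  · intro h
    induction hn : w.length using Nat.strong_induction_on generalizing p w with
    | _ n ih =>
      rcases avoid_or_hit δ s₀ p w with h1 | ⟨f, w', rfl, hf⟩
      · rw [h] at h1
        exact Or.inl h1
      · right
        have hlen : w'.length < n := by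
          have := List.length_pos_iff.2 (Hit.ne_nil δ s₀ hf)
          rw [← hn, List.length_append]; omega
        have hrun : run δ s₀ w' = q := by
          rw [run_append, Hit.run_eq δ s₀ hf] at h
          exact h
        rcases ih _ hlen s₀ w' hrun rfl with h2 | h2
        · exact Language.mem_mul.2 ⟨f ++ [], Language.mem_mul.2 ⟨f, hf, [],
            Language.nil_mem_kstar _, rfl⟩, w', h2, by simp⟩
        · obtain ⟨x, hx, v, hv, rfl⟩ := Language.mem_mul.1 h2
          obtain ⟨k, hk, u, hu, rfl⟩ := Language.mem_mul.1 hx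
          exact Language.mem_mul.2 ⟨f ++ (k ++ u), Language.mem_mul.2 ⟨f, hf, k ++ u,
            cons_kstar hk hu, rfl⟩, v, hv, by simp⟩
  · rintro (h | h)
    · exact Avoid.run_eq δ s₀ h
    · obtain ⟨x, hx, v, hv, rfl⟩ := Language.mem_mul.1 h
      obtain ⟨f, hf, u, hu, rfl⟩ := Language.mem_mul.1 hx
      rw [run_append, run_append, Hit.run_eq δ s₀ hf, run_kstar δ s₀ hu]
      exact Avoid.run_eq δ s₀ hv

theorem hit_iff (p : Ω) (w : List α) :
    Hit δ s₀ p w ↔ ∃ x a u, w = u ++ [a] ∧ Avoid δ s₀ p x u ∧ δ x a = s₀ := by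
  induction w generalizing p with
  | nil =>
    constructor
    · intro h; exact h.elim
    · rintro ⟨x, a, u, h, -⟩; simp at h
  | cons b w ih =>
    constructor
    · rintro (⟨h1, rfl⟩ | ⟨h1, h2⟩)
      · exact ⟨p, b, [], rfl, rfl, h1⟩
      · obtain ⟨x, a, u, rfl, hu, hx⟩ := (ih _).1 h2
        exact ⟨x, a, b :: u, rfl, ⟨h1, hu⟩, hx⟩
    · rintro ⟨x, a, u, h, hu, hx⟩
      cases u with
      | nil =>
        simp only [List.nil_append, List.cons.injEq] at h
        obtain ⟨rfl, rfl⟩ := h
        have : p = x := hu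
        subst this
        exact Or.inl ⟨hx, rfl⟩
      | cons c u =>
        simp only [List.cons_append, List.cons.injEq] at h
        obtain ⟨rfl, rfl⟩ := h
        exact Or.inr ⟨hu.1, (ih _).2 ⟨x, a, u, rfl, hu.2, hx⟩⟩

end Vale.Agent.Lib.P329
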