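import Vale.Agent.Lib.P329.Defs

/-!
# Closure properties of the classes of languages of bounded generalized star height
-/

namespace Vale.Agent.Lib.P329

variable {α : Type} {n : ℕ}

theorem HeightLE.mono {m : ℕ} {L : Language α} (h : HeightLE n L) (hnm : n ≤ m) : HeightLE m L := by
  obtain ⟨P, hP, hs⟩ := h
  exact ⟨P, hP, hs.trans hnm⟩

theorem heightLE_zero : HeightLE n (0 : Language α) := ⟨GRE.zero, rfl, Nat.zero_le _⟩

theorem heightLE_one : HeightLE n (1 : Language α) := ⟨GRE.one, rfl, Nat.zero_le _⟩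

theorem heightLE_char (a : α) : HeightLE n ({[a]} : Language α) := ⟨GRE.char a, rfl, Nat.zero_le _⟩

theorem HeightLE.add {L M : Language α} (hL : HeightLE n L) (hM : HeightLE n M) :
    HeightLE n (L + M) := by
  obtain ⟨P, rfl, hP⟩ := hL
  obtain ⟨Q, rfl, hQ⟩ := hM
  exact ⟨GRE.plus P Q, rfl, max_le hP hQ⟩

theorem HeightLE.mul {L M : Language α} (hL : HeightLE n L) (hM : HeightLE n M) :
    HeightLE n (L * M) := by
  obtain ⟨P, rfl, hP⟩ := hL
  obtain ⟨Q, rfl, hQ⟩ := hM
  exact ⟨GRE.comp P Q, rfl, max_le hP hQ⟩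

theorem HeightLE.compl {L : Language α} (hL : HeightLE n L) : HeightLE n Lᶜ := by
  obtain ⟨P, rfl, hP⟩ := hL
  exact ⟨GRE.neg P, rfl, hP⟩

theorem HeightLE.kstar {L : Language α} (hL : HeightLE n L) : HeightLE (n + 1) (KStar.kstar L) := by
  obtain ⟨P, rfl, hP⟩ := hL
  exact ⟨GRE.star P, rfl, Nat.succ_le_succ hP⟩

theorem HeightLE.of_iff {L M : Language α} (hL : HeightLE n L) (e : ∀ w, w ∈ M ↔ w ∈ L) :
    HeightLE n M := by
  have : M = L := Set.ext e
  rwa [this]

theorem heightLE_top : HeightLE n (⊤ : Language α) :=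
  ((heightLE_zero (α := α) (n := n)).compl).of_iff fun w =>
    iff_of_true trivial (fun h => (Language.notMem_zero w) h)

theorem HeightLE.inter {L M : Language α} (hL : HeightLE n L) (hM : HeightLE n M) :
    HeightLE n ({w | w ∈ L ∧ w ∈ M} : Language α) :=
  ((hL.compl.add hM.compl).compl).of_iff fun w => by
    change (w ∈ L ∧ w ∈ M) ↔ ¬ (w ∉ L ∨ w ∉ M)
    tauto

/-- finite unions, indexed by a finite type and cut down by a predicate -/
theorem heightLE_iUnion {κ : Type*} [Finite κ] (p : κ → Prop) (L : κ → Language α)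
    (h : ∀ k, p k → HeightLE n (L k)) :
    HeightLE n ({w | ∃ k, p k ∧ w ∈ L k} : Language α) := by
  classical
  have key : ∀ s : Finset κ, HeightLE n ({w | ∃ k ∈ s, p k ∧ w ∈ L k} : Language α) := by
    intro s
    induction s using Finset.induction_on with
    | empty =>
      exact heightLE_zero.of_iff fun w => by
        constructor
        · rintro ⟨k, hk, -⟩; simp at hk
        · intro hw; exact absurd hw (Language.notMem_zero w)
    | insert a s _ ih =>
      by_cases hp : p a
      · exact ((h a hp).add ih).of_iff fun w => by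
          change (∃ k ∈ insert a s, p k ∧ w ∈ L k) ↔ (w ∈ L a ∨ ∃ k ∈ s, p k ∧ w ∈ L k)
          constructor
          · rintro ⟨k, hk, hpk, hw⟩
            rcases Finset.mem_insert.1 hk with rfl | hk
            · exact Or.inl hw
            · exact Or.inr ⟨k, hk, hpk, hw⟩
          · rintro (hw | ⟨k, hk, hpk, hw⟩)
            · exact ⟨a, Finset.mem_insert_self _ _, hp, hw⟩
            · exact ⟨k, Finset.mem_insert_of_mem hk, hpk, hw⟩
      · exact ih.of_iff fun w => by
          change (∃ k ∈ insert a s, p k ∧ w ∈ L k) ↔ (∃ k ∈ s, p k ∧ w ∈ L k)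
          constructor
          · rintro ⟨k, hk, hpk, hw⟩
            rcases Finset.mem_insert.1 hk with rfl | hk
            · exact absurd hpk hp
            · exact ⟨k, hk, hpk, hw⟩
          · rintro ⟨k, hk, hpk, hw⟩
            exact ⟨k, Finset.mem_insert_of_mem hk, hpk, hw⟩
  have := Fintype.ofFinite κ
  exact (key Finset.univ).of_iff fun w => by
    change (∃ k, p k ∧ w ∈ L k) ↔ (∃ k ∈ Finset.univ, p k ∧ w ∈ L k)
    simp

/-- finite intersections, indexed by a finite type -/
theorem heightLE_iInter {κ : Type*} [Finite κ] (L : κ → Language α)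
    (h : ∀ k, HeightLE n (L k)) :
    HeightLE n ({w | ∀ k, w ∈ L k} : Language α) :=
  ((heightLE_iUnion (fun _ => True) (fun k => (L k)ᶜ) (fun k _ => (h k).compl)).compl).of_iff
    fun w => by
      change (∀ k, w ∈ L k) ↔ ¬ (∃ k, True ∧ w ∉ L k)
      push Not
      simp

/-- the words all of whose letters satisfy `B` -/
def Letters (B : α → Prop) : Language α := {w | ∀ a ∈ w, B a}

/-- The set of words all of whose letters satisfy `B` is star-free (finite alphabet). -/
theorem heightLE_letters [Finite α] (B : α → Prop) :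
    HeightLE n (Letters B) := by
  have h1 : HeightLE n ({w | ∃ a, ¬ B a ∧ w ∈ ({[a]} : Language α)} : Language α) :=
    heightLE_iUnion (fun a => ¬ B a) (fun a => ({[a]} : Language α)) (fun a _ => heightLE_char a)
  refine (((heightLE_top.mul h1).mul heightLE_top).compl).of_iff fun w => ?_
  change (∀ a ∈ w, B a) ↔ ¬ (w ∈ ((⊤ : Language α) * _) * (⊤ : Language α))
  constructor
  · intro hw hmem
    obtain ⟨u, hu, v, -, rfl⟩ := Language.mem_mul.1 hmem
    obtain ⟨x, -, y, ⟨a, ha, hy⟩, rfl⟩ := Language.mem_mul.1 hu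
    have hy' : y = [a] := hy
    subst hy'
    exact ha (hw a (by simp))
  · intro hw a ha
    by_contra hB
    apply hw
    obtain ⟨x, y, rfl⟩ := List.append_of_mem ha
    refine Language.mem_mul.2 ⟨x ++ [a], Language.mem_mul.2 ⟨x, trivial, [a], ⟨a, hB, rfl⟩, rfl⟩,
      y, trivial, by simp⟩

end Vale.Agent.Lib.P329
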