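import Vale.Agent.Lib.P329.Reset

/-!
# Counting exceptional steps that arrive at a given phase
-/

namespace Vale.Agent.Lib.P329

section General

variable {α Ω Ω' : Type}

theorem cnt_sim (δ : Ω → α → Ω) (δ' : Ω' → α → Ω') (R : Ω → Ω' → Prop)
    (P : Ω → α → Prop) (P' : Ω' → α → Prop)
    (hstep : ∀ s s' z, R s s' → R (δ s z) (δ' s' z))
    (hP : ∀ s s' z, R s s' → (P s z ↔ P' s' z)) (w : List α) :
    ∀ s s', R s s' → cnt δ P s w = cnt δ' P' s' w ∧ R (run δ s w) (run δ' s' w) := by
  induction w with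
  | nil => intro s s' h; exact ⟨rfl, h⟩
  | cons z w ih =>
    intro s s' h
    obtain ⟨h1, h2⟩ := ih _ _ (hstep s s' z h)
    refine ⟨?_, h2⟩
    rw [cnt_cons, cnt_cons, h1]
    congr 1
    by_cases hp : P s z
    · rw [if_pos hp, if_pos ((hP s s' z h).1 hp)]
    · rw [if_neg hp, if_neg (fun h' => hp ((hP s s' z h).2 h'))]

theorem cnt_congr (δ : Ω → α → Ω) {P P' : Ω → α → Prop} (h : ∀ s z, P s z ↔ P' s z) (s : Ω)
    (w : List α) : cnt δ P s w = cnt δ P' s w :=
  (cnt_sim δ δ (fun a b => a = b) P P' (by rintro s _ z rfl; rfl)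
    (by rintro s _ z rfl; exact h s z) w s s rfl).1

theorem cnt_split (δ : Ω → α → Ω) {P P1 P2 : Ω → α → Prop}
    (h : ∀ s z, P s z ↔ (P1 s z ∨ P2 s z)) (hd : ∀ s z, ¬ (P1 s z ∧ P2 s z)) (s : Ω)
    (w : List α) : cnt δ P s w = cnt δ P1 s w + cnt δ P2 s w := by
  induction w generalizing s with
  | nil => rfl
  | cons z w ih =>
    rw [cnt_cons, cnt_cons, cnt_cons, ih]
    have h1 := h s z
    have h2 := hd s z
    by_cases a1 : P1 s z <;> by_cases a2 : P2 s z <;> by_cases a : P s z <;>
      simp only [a1, a2, a, if_true, if_false] <;> first | omega | tauto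

end General

variable {α H : Type} [Group H] (ψ : α → H) (cls : α → Cls) (c : H)

section Sim

variable {Θ : Type} (step : Θ → α → Θ) (ar : Θ → Bool) (ph : Θ → H)

/-- the relation between the states of an automaton that carries the true armed bit and the true
phase, and the states of the reset automaton -/
def Rel (θ : Θ) (r : Option Bool × H) : Prop :=
  ph θ = r.2 ∧ (r.1.getD false = ar θ ∨ (r.1 = some false ∧ ar θ = true ∧ ph θ = c))

variable (hg : Good ψ cls) (har : ∀ θ z, ar (step θ z) = arm (ar θ) (cls z))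
  (hph : ∀ θ z, ph (step θ z) = ph θ * ψ z)

include hg in
theorem rel_cut {θ : Θ} {r : Option Bool × H} (z : α) (h : Rel c ar ph θ r) :
    (ph θ * ψ z = c ∧ exc (ar θ) (cls z) = false) ↔ rstep ψ cls c r z = rbase c := by
  rw [rstep_eq_base_iff, ← h.1]
  rcases h.2 with h2 | ⟨h2, h3, h4⟩
  · rw [h2]
  · rw [h2, h3, h4]
    cases hk : cls z with
    | b =>
      have := hg.b z hk
      constructor
      · intro h5; exact absurd (mul_eq_left.1 h5.1) this
      · intro h5; exact absurd (mul_eq_left.1 h5.1) this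
    | nt => simp [exc]
    | a => simp [exc]
    | o => simp [exc]
    | z => simp [exc]

include hg har hph in
theorem rel_step {θ : Θ} {r : Option Bool × H} (z : α) (h : Rel c ar ph θ r) :
    Rel c ar ph (step θ z) (rstep ψ cls c r z) := by
  refine ⟨by rw [hph, rstep_snd, h.1], ?_⟩
  rw [har, hph]
  unfold rstep
  rw [← h.1]
  by_cases hc : ph θ * ψ z = c
  · rw [if_pos hc]
    by_cases he : exc (r.1.getD false) (cls z) = true
    · rw [if_pos he]
      left
      rcases exc_class he with hk | hk <;> simp [hk, arm]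
    · rw [if_neg he]
      cases ha : arm (ar θ) (cls z)
      · left; rfl
      · right; exact ⟨rfl, rfl, hc⟩
  · rw [if_neg hc]
    left
    rcases h.2 with h2 | ⟨h2, h3, h4⟩
    · simp [h2]
    · rw [h2, h3]
      cases hk : cls z with
      | nt =>
        exfalso
        apply hc
        rw [hg.nt z hk, mul_one, h4]
      | a => simp [arm]
      | b => simp [arm]
      | o => simp [arm]
      | z => simp [arm]

include hg har hph in
theorem rel_run (θ : Θ) (r : Option Bool × H) (h : Rel c ar ph θ r) (w : List α) :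
    cnt step (fun θ z => ph θ * ψ z = c ∧ exc (ar θ) (cls z) = false) θ w =
      visits (rstep ψ cls c) (rbase c) r w ∧
    Rel c ar ph (run step θ w) (run (rstep ψ cls c) r w) :=
  cnt_sim step (rstep ψ cls c) (Rel c ar ph) _ _
    (fun _ _ z h => rel_step ψ cls c step ar ph hg har hph z h)
    (fun _ _ z h => rel_cut ψ cls c ar ph hg z h) w θ r h

variable (hgen : ∀ g : H, g ≠ 1 → ∀ d : H, ∃ j : ℕ, g ^ j = d)

include hg har hph hgen in
/-- the final state of the reset automaton and the number of non-exceptional arrivals at phase `c`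
modulo `n` -/
theorem meas_cut [Finite α] [Finite H] (n : ℕ) [NeZero n] (θ₀ : Θ) :
    Meas (fun w : List α => (run (rstep ψ cls c) (some (ar θ₀), ph θ₀) w,
      (cnt step (fun θ z => ph θ * ψ z = c ∧ exc (ar θ) (cls z) = false) θ₀ w : ZMod n))) := by
  have h := meas_run_visits (rstep ψ cls c) (rbase c) (counterFreeOff_rstep ψ cls c hg hgen) n
    (some (ar θ₀), ph θ₀)
  refine h.congr fun w => ?_
  rw [(rel_run ψ cls c step ar ph hg har hph θ₀ (some (ar θ₀), ph θ₀) ⟨rfl, Or.inl rfl⟩ w).1]

end Sim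

section Exc

variable {Θ : Type} (step : Θ → α → Θ) (ar : Θ → Bool) (ph : Θ → H)
  (hg : Good ψ cls) (har : ∀ θ z, ar (step θ z) = arm (ar θ) (cls z))
  (hph : ∀ θ z, ph (step θ z) = ph θ * ψ z)
  (hgen : ∀ g : H, g ≠ 1 → ∀ d : H, ∃ j : ℕ, g ^ j = d)

include hph hgen in
/-- the number of all arrivals at phase `c` modulo `n` -/
theorem meas_arrivals [Finite α] [Finite H] (n : ℕ) [NeZero n] (θ₀ : Θ) :
    Meas (fun w : List α => (cnt step (fun θ z => ph θ * ψ z = c) θ₀ w : ZMod n)) := by
  have hg' : Good ψ (fun _ : α => Cls.o) :=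
    ⟨fun z h => by simp at h, fun z h => by simp at h, fun z h => by simp at h⟩
  have h := (meas_cut ψ (fun _ => Cls.o) c step (fun _ => false) ph hg' (fun _ _ => rfl) hph hgen n
    θ₀).comp Prod.snd
  refine h.congr fun w => ?_
  congr 1
  exact cnt_congr step (fun s z => by simp [exc]) θ₀ w

include hg har hph hgen in
/-- the number of exceptional arrivals at phase `c` modulo `n` -/
theorem meas_exc [Finite α] [Finite H] (n : ℕ) [NeZero n] (θ₀ : Θ) :
    Meas (fun w : List α =>
      (cnt step (fun θ z => ph θ * ψ z = c ∧ exc (ar θ) (cls z) = true) θ₀ w : ZMod n)) := by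
  have h1 := meas_arrivals ψ c step ph hph hgen n θ₀
  have h2 := (meas_cut ψ cls c step ar ph hg har hph hgen n θ₀).comp Prod.snd
  refine (h1.sub h2).congr fun w => ?_
  have := cnt_split step (P := fun θ z => ph θ * ψ z = c)
    (P1 := fun θ z => ph θ * ψ z = c ∧ exc (ar θ) (cls z) = false)
    (P2 := fun θ z => ph θ * ψ z = c ∧ exc (ar θ) (cls z) = true)
    (fun s z => by
      cases exc (ar s) (cls z) <;> simp)
    (fun s z => by
      cases exc (ar s) (cls z) <;> simp) θ₀ w
  rw [this]
  push_cast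
  ring

end Exc

end Vale.Agent.Lib.P329
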