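import Vale.Agent.Lib.P329.Core

/-!
# Counting the occurrences of a letter at a given phase
-/

namespace Vale.Agent.Lib.P329

section General

variable {α Ω : Type}

open Classical in
theorem cnt_sum_fiber {κ : Type} [Fintype κ] (δ : Ω → α → Ω) (P : Ω → α → Prop) (f : Ω → α → κ)
    (s : Ω) (w : List α) : cnt δ P s w = ∑ k, cnt δ (fun s z => P s z ∧ f s z = k) s w := by
  induction w generalizing s with
  | nil => simp [cnt_nil]
  | cons z w ih =>
    simp only [cnt_cons]
    rw [Finset.sum_add_distrib, ← ih]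
    congr 1
    by_cases hp : P s z
    · simp [hp]
    · simp [hp]

open Classical in
/-- indicator of a proposition -/
noncomputable def ind (p : Prop) : ℕ := if p then 1 else 0

theorem cnt_cons_ind (δ : Ω → α → Ω) (P : Ω → α → Prop) (p : Ω) (a : α) (w : List α) :
    cnt δ P p (a :: w) = ind (P p a) + cnt δ P (δ p a) w := rfl

end General

theorem cast_div_trick (k n a : ℕ) (hk : 0 < k) :
    (((((k * a : ℕ) : ZMod (k * n)).val / k : ℕ)) : ZMod n) = (a : ZMod n) := by
  rw [ZMod.val_natCast, Nat.mul_mod_mul_left, Nat.mul_div_cancel_left _ hk, ZMod.natCast_mod]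

variable {α H : Type} [Group H] (ψ : α → H)

open Classical in
/-- the automaton that remembers the last non-neutral letter and the phase -/
noncomputable def bstep (s : α × H) (z : α) : α × H := (if ψ z = 1 then s.1 else z, s.2 * ψ z)

theorem bstep_snd (s : α × H) (z : α) : (bstep ψ s z).2 = s.2 * ψ z := rfl

variable (hgen : ∀ g : H, g ≠ 1 → ∀ d : H, ∃ j : ℕ, g ^ j = d)

section Letter

variable (x : α)

include hgen in
/-- the number of occurrences of a letter -/
theorem meas_occ [Finite α] [Finite H] (n : ℕ) [NeZero n] (s₀ : α × H) :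
    Meas (fun w : List α => (cnt (bstep ψ) (fun _ z => z = x) s₀ w : ZMod n)) := by
  classical
  have hg : Good (fun _ : α => (1 : H)) (fun z => if z = x then Cls.z else Cls.o) :=
    ⟨fun z h => rfl, fun z h => rfl, fun z h => by
      exfalso
      by_cases hz : z = x <;> simp [hz] at h⟩
  have h := meas_exc (fun _ : α => (1 : H)) (fun z => if z = x then Cls.z else Cls.o) 1 (bstep ψ)
    (fun _ => false) (fun _ => 1) hg
    (fun θ z => by by_cases hz : z = x <;> simp [hz, arm]) (fun θ z => by simp) hgen n s₀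
  refine h.congr fun w => ?_
  congr 1
  exact cnt_congr _ (fun s z => by by_cases hz : z = x <;> simp [hz, exc]) _ _

include hgen in
/-- neutral letters -/
theorem meas_neutral [Finite α] [Finite H] (hx : ψ x = 1) (n : ℕ) [NeZero n] (h : H)
    (s₀ : α × H) :
    Meas (fun w : List α => (cnt (bstep ψ) (fun s z => s.2 = h ∧ z = x) s₀ w : ZMod n)) := by
  classical
  have hg : Good ψ (fun z => if z = x then Cls.z else Cls.o) :=
    ⟨fun z h => by
      exfalso
      by_cases hz : z = x <;> simp [hz] at h,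
     fun z h => by
      by_cases hz : z = x
      · rw [hz, hx]
      · simp [hz] at h,
     fun z h => by
      exfalso
      by_cases hz : z = x <;> simp [hz] at h⟩
  have hm := meas_exc ψ (fun z => if z = x then Cls.z else Cls.o) h (bstep ψ)
    (fun _ => false) (fun s => s.2) hg
    (fun θ z => by by_cases hz : z = x <;> simp [hz, arm]) (fun θ z => rfl) hgen n s₀
  refine hm.congr fun w => ?_
  congr 1
  refine cnt_congr _ (fun s z => ?_) _ _
  by_cases hz : z = x
  · subst hz
    simp [exc, hx]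
  · simp [hz, exc]

variable (hx : ψ x ≠ 1)

open Classical in
/-- classes for the mode `last non-neutral letter is x`, with exceptional letters `B` -/
noncomputable def clsOut (B : α → Prop) (z : α) : Cls :=
  if ψ z = 1 then Cls.nt else if z = x then Cls.a else if B z then Cls.b else Cls.o

open Classical in
/-- classes for the mode `last non-neutral letter is not x`, with exceptional letter `x` -/
noncomputable def clsIn (z : α) : Cls :=
  if ψ z = 1 then Cls.nt else if z = x then Cls.b else Cls.a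

theorem good_clsOut (B : α → Prop) : Good ψ (clsOut ψ x B) := by
  refine ⟨fun z h => ?_, fun z h => ?_, fun z h => ?_⟩
  · by_contra h1
    unfold clsOut at h
    rw [if_neg h1] at h
    split_ifs at h
  · exfalso
    unfold clsOut at h
    split_ifs at h
  · intro h1
    unfold clsOut at h
    rw [if_pos h1] at h
    exact Cls.noConfusion h

theorem good_clsIn : Good ψ (clsIn ψ x) := by
  refine ⟨fun z h => ?_, fun z h => ?_, fun z h => ?_⟩
  · by_contra h1
    unfold clsIn at h
    rw [if_neg h1] at h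
    split_ifs at h
  · exfalso
    unfold clsIn at h
    split_ifs at h
  · intro h1
    unfold clsIn at h
    rw [if_pos h1] at h
    exact Cls.noConfusion h

open Classical in
theorem arm_clsOut (B : α → Prop) (s : α × H) (z : α) :
    decide ((bstep ψ s z).1 = x) = arm (decide (s.1 = x)) (clsOut ψ x B z) := by
  unfold bstep clsOut
  by_cases h1 : ψ z = 1
  · simp [h1, arm]
  · by_cases h2 : z = x
    · subst h2
      simp [h1, arm]
    · by_cases h3 : B z <;> simp [h1, h2, h3, arm]

open Classical in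
theorem arm_clsIn (s : α × H) (z : α) :
    decide ((bstep ψ s z).1 ≠ x) = arm (decide (s.1 ≠ x)) (clsIn ψ x z) := by
  unfold bstep clsIn
  by_cases h1 : ψ z = 1
  · simp [h1, arm]
  · by_cases h2 : z = x
    · subst h2
      simp [h1, arm]
    · simp [h1, h2, arm]

include hgen hx in
theorem meas_in [Finite α] [Finite H] (n : ℕ) [NeZero n] (h : H) (s₀ : α × H) :
    Meas (fun w : List α =>
      (cnt (bstep ψ) (fun s z => s.2 = h ∧ s.1 ≠ x ∧ z = x) s₀ w : ZMod n)) := by
  classical
  have hm := meas_exc ψ (clsIn ψ x) (h * ψ x) (bstep ψ) (fun s => decide (s.1 ≠ x))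
    (fun s => s.2) (good_clsIn ψ x) (arm_clsIn ψ x) (fun θ z => rfl) hgen n s₀
  refine hm.congr fun w => ?_
  congr 1
  refine cnt_congr _ (fun s z => ?_) _ _
  unfold clsIn
  by_cases h2 : z = x
  · subst h2
    by_cases h3 : s.1 = z <;> simp [hx, exc, h3]
  · by_cases h1 : ψ z = 1 <;> simp [h1, h2, exc]

include hgen in
theorem meas_out [Finite α] [Finite H] (n : ℕ) [NeZero n] (h : H) (b : α) (hb : b ≠ x)
    (hb1 : ψ b ≠ 1) (s₀ : α × H) :
    Meas (fun w : List α =>
      (cnt (bstep ψ) (fun s z => s.2 = h ∧ s.1 = x ∧ z = b) s₀ w : ZMod n)) := by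
  classical
  have hm := meas_exc ψ (clsOut ψ x (fun z => z = b)) (h * ψ b) (bstep ψ)
    (fun s => decide (s.1 = x)) (fun s => s.2) (good_clsOut ψ x _) (arm_clsOut ψ x _)
    (fun θ z => rfl) hgen n s₀
  refine hm.congr fun w => ?_
  congr 1
  refine cnt_congr _ (fun s z => ?_) _ _
  unfold clsOut
  by_cases h2 : z = b
  · subst h2
    by_cases h3 : s.1 = x <;> simp [hb, hb1, exc, h3]
  · by_cases h1 : ψ z = 1
    · simp [h1, h2, exc]
    · by_cases h4 : z = x
      · subst h4
        simp [h1, h2, exc]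
      · simp [h1, h2, h4, exc]

include hgen in
theorem meas_outAll [Finite α] [Finite H] (n : ℕ) [NeZero n] (h : H) (s₀ : α × H) :
    Meas (fun w : List α =>
      (cnt (bstep ψ) (fun s z => s.2 = h ∧ s.1 = x ∧ z ≠ x ∧ ψ z ≠ 1) s₀ w : ZMod n)) := by
  classical
  have := Fintype.ofFinite α
  have hm : Meas (fun w : List α => ∑ b : α, (cnt (bstep ψ)
      (fun s z => (s.2 = h ∧ s.1 = x ∧ z ≠ x ∧ ψ z ≠ 1) ∧ z = b) s₀ w : ZMod n)) := by
    refine Meas.sum _ (fun b _ => ?_)
    by_cases hb : b ≠ x ∧ ψ b ≠ 1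
    · refine (meas_out ψ hgen x n h b hb.1 hb.2 s₀).congr fun w => ?_
      congr 1
      refine cnt_congr _ (fun s z => ?_) _ _
      constructor
      · rintro ⟨⟨h1, h2, -, -⟩, h3⟩; exact ⟨h1, h2, h3⟩
      · rintro ⟨h1, h2, rfl⟩; exact ⟨⟨h1, h2, hb.1, hb.2⟩, rfl⟩
    · refine (meas_const (0 : ZMod n)).congr fun w => ?_
      have : cnt (bstep ψ) (fun s z => (s.2 = h ∧ s.1 = x ∧ z ≠ x ∧ ψ z ≠ 1) ∧ z = b) s₀ w =
          cnt (bstep ψ) (fun _ _ => False) s₀ w := by
        refine cnt_congr _ (fun s z => ?_) _ _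
        constructor
        · rintro ⟨⟨-, -, h3, h4⟩, rfl⟩; exact hb ⟨h3, h4⟩
        · exact False.elim
      rw [this]
      have h0 : ∀ (s : α × H) (w : List α), cnt (bstep ψ) (fun _ _ => False) s w = 0 := by
        intro s w
        induction w generalizing s with
        | nil => rfl
        | cons z w ih => rw [cnt_cons, ih]; simp
      rw [h0]; simp
  refine hm.congr fun w => ?_
  rw [cnt_sum_fiber (bstep ψ) _ (fun _ z => z) s₀ w]
  push_cast
  rfl

open Classical in
/-- the potential function of the counting identity -/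
noncomputable def pot (h : H) (s : α × H) : ℕ := if s.1 = x ∧ s.2 = h then 1 else 0

include hx in
open Classical in
theorem ident (h : H) (s : α × H) (w : List α) :
    cnt (bstep ψ) (fun s z => s.2 = h ∧ z = x) s w + pot x h (run (bstep ψ) s w) +
        cnt (bstep ψ) (fun s z => s.2 = h ∧ s.1 = x ∧ z ≠ x ∧ ψ z ≠ 1) s w =
      cnt (bstep ψ) (fun s z => s.2 * ψ x = h ∧ z = x) s w + pot x h s +
        cnt (bstep ψ) (fun s z => s.2 = h ∧ s.1 ≠ x ∧ z = x) s w := by
  induction w generalizing s with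
  | nil => simp [cnt_nil, run_nil]
  | cons z w ih =>
    have ih' := ih (bstep ψ s z)
    simp only [cnt_cons_ind, run_cons]
    have key : ind (s.2 = h ∧ z = x) +
        ind (s.2 = h ∧ s.1 = x ∧ z ≠ x ∧ ψ z ≠ 1) + pot x h (bstep ψ s z) =
        ind (s.2 * ψ x = h ∧ z = x) + pot x h s +
        ind (s.2 = h ∧ s.1 ≠ x ∧ z = x) := by
      unfold pot bstep ind
      by_cases hz : z = x
      · subst hz
        by_cases h1 : s.2 = h <;> by_cases h2 : s.1 = z <;> by_cases h3 : s.2 * ψ z = h <;>
          simp [hx, h1, h2, h3]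
      · by_cases h0 : ψ z = 1
        · simp [hz, h0]
        · by_cases h1 : s.2 = h <;> by_cases h2 : s.1 = x <;> simp [hz, h0, h1, h2]
    omega

include hgen hx in
theorem meas_pot [Finite α] [Finite H] (n : ℕ) [NeZero n] (h : H) (s₀ : α × H) :
    Meas (fun w : List α => (pot x h (run (bstep ψ) s₀ w) : ZMod n)) := by
  classical
  have hm := (meas_cut ψ (clsOut ψ x (fun _ => False)) (h * ψ x) (bstep ψ)
    (fun s => decide (s.1 = x)) (fun s => s.2) (good_clsOut ψ x _) (arm_clsOut ψ x _)
    (fun θ z => rfl) hgen n s₀).comp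
      (fun y => ((if y.1.2 = h ∧ y.1.1.getD false = true then 1 else 0 : ℕ) : ZMod n))
  refine hm.congr fun w => ?_
  have hrel := (rel_run ψ (clsOut ψ x (fun _ => False)) (h * ψ x) (bstep ψ)
    (fun s => decide (s.1 = x)) (fun s => s.2) (good_clsOut ψ x _) (arm_clsOut ψ x _)
    (fun θ z => rfl) s₀ (some (decide (s₀.1 = x)), s₀.2) ⟨rfl, Or.inl rfl⟩ w).2
  obtain ⟨h1, h2⟩ := hrel
  simp only at h1 h2 ⊢
  congr 1
  unfold pot
  rw [← h1]
  by_cases hh : (run (bstep ψ) s₀ w).2 = h
  · rcases h2 with h2 | ⟨-, -, h4⟩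
    · rw [h2]
      simp [hh]
    · exfalso
      rw [hh] at h4
      exact hx (left_eq_mul.1 h4)
  · simp [hh]

include hgen hx in
theorem meas_diff1 [Finite α] [Finite H] (n : ℕ) [NeZero n] (h : H) (s₀ : α × H) :
    Meas (fun w : List α => (cnt (bstep ψ) (fun s z => s.2 = h ∧ z = x) s₀ w : ZMod n) -
      (cnt (bstep ψ) (fun s z => s.2 = h * (ψ x)⁻¹ ∧ z = x) s₀ w : ZMod n)) := by
  have h1 := meas_pot ψ hgen x hx n h s₀
  have h2 := meas_in ψ hgen x hx n h s₀
  have h3 := meas_outAll ψ hgen x n h s₀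
  have h4 := meas_const (α := α) ((pot x h s₀ : ℕ) : ZMod n)
  refine (((h4.add h2).sub h1).sub h3).congr fun w => ?_
  have e := ident ψ x hx h s₀ w
  have e' : cnt (bstep ψ) (fun s z => s.2 = h * (ψ x)⁻¹ ∧ z = x) s₀ w =
      cnt (bstep ψ) (fun s z => s.2 * ψ x = h ∧ z = x) s₀ w :=
    cnt_congr _ (fun s z => by rw [eq_mul_inv_iff_mul_eq]) _ _
  rw [e']
  have e2 := congrArg (Nat.cast : ℕ → ZMod n) e
  push_cast at e2
  linear_combination e2

include hgen hx in
theorem meas_diff [Finite α] [Finite H] (n : ℕ) [NeZero n] (h h' : H) (s₀ : α × H) :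
    Meas (fun w : List α => (cnt (bstep ψ) (fun s z => s.2 = h ∧ z = x) s₀ w : ZMod n) -
      (cnt (bstep ψ) (fun s z => s.2 = h' ∧ z = x) s₀ w : ZMod n)) := by
  have key : ∀ j : ℕ, Meas (fun w : List α =>
      (cnt (bstep ψ) (fun s z => s.2 = h ∧ z = x) s₀ w : ZMod n) -
      (cnt (bstep ψ) (fun s z => s.2 = h * ((ψ x)⁻¹) ^ j ∧ z = x) s₀ w : ZMod n)) := by
    intro j
    induction j with
    | zero =>
      refine (meas_const (0 : ZMod n)).congr fun w => ?_
      simp
    | succ j ih =>
      refine (ih.add (meas_diff1 ψ hgen x hx n (h * ((ψ x)⁻¹) ^ j) s₀)).congr fun w => ?_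
      rw [pow_succ, ← mul_assoc]
      ring
  obtain ⟨j, hj⟩ := hgen (ψ x)⁻¹ (by simpa using hx) (h⁻¹ * h')
  have := key j
  rw [hj] at this
  simpa using this

include hgen hx in
theorem meas_card_mul [Finite α] [Finite H] (n : ℕ) [NeZero n] (h : H) (s₀ : α × H) :
    Meas (fun w : List α =>
      ((Nat.card H * cnt (bstep ψ) (fun s z => s.2 = h ∧ z = x) s₀ w : ℕ) : ZMod n)) := by
  classical
  have := Fintype.ofFinite H
  have h1 := meas_occ ψ hgen x n s₀
  have h2 : Meas (fun w : List α => ∑ h' : H,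
      ((cnt (bstep ψ) (fun s z => s.2 = h ∧ z = x) s₀ w : ZMod n) -
      (cnt (bstep ψ) (fun s z => s.2 = h' ∧ z = x) s₀ w : ZMod n))) :=
    Meas.sum _ (fun h' _ => meas_diff ψ hgen x hx n h h' s₀)
  refine (h1.add h2).congr fun w => ?_
  have e := cnt_sum_fiber (bstep ψ) (fun _ z => z = x) (fun s _ => s.2) s₀ w
  have e' : ∀ k : H, cnt (bstep ψ) (fun s z => z = x ∧ s.2 = k) s₀ w =
      cnt (bstep ψ) (fun s z => s.2 = k ∧ z = x) s₀ w := fun k =>
    cnt_congr _ (fun s z => and_comm) _ _
  simp only [e'] at e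
  rw [e, Finset.sum_sub_distrib, Finset.sum_const, Finset.card_univ, Nat.card_eq_fintype_card]
  push_cast
  rw [nsmul_eq_mul]
  ring

include hgen hx in
theorem meas_nonneutral [Finite α] [Finite H] (n : ℕ) [NeZero n] (h : H) (s₀ : α × H) :
    Meas (fun w : List α => (cnt (bstep ψ) (fun s z => s.2 = h ∧ z = x) s₀ w : ZMod n)) := by
  have hk : 0 < Nat.card H := Nat.card_pos
  have : NeZero (Nat.card H * n) := ⟨Nat.mul_ne_zero hk.ne' (NeZero.ne n)⟩
  have h1 := (meas_card_mul ψ hgen x hx (Nat.card H * n) h s₀).comp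
    (fun y => ((y.val / Nat.card H : ℕ) : ZMod n))
  refine h1.congr fun w => ?_
  exact (cast_div_trick _ _ _ hk).symm

end Letter

include hgen in
/-- **Counting a letter at a phase.**  The number modulo `n` of positions of a word at which the
letter `x` is read while the image in `H` of the part of the word read before is `h`. -/
theorem meas_count [Finite α] [Finite H] (n : ℕ) [NeZero n] (h : H) (x : α) :
    Meas (fun w : List α =>
      (cnt (fun (g : H) (z : α) => g * ψ z) (fun g z => g = h ∧ z = x) 1 w : ZMod n)) := by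
  have key : Meas (fun w : List α =>
      (cnt (bstep ψ) (fun s z => s.2 = h ∧ z = x) (x, 1) w : ZMod n)) := by
    by_cases hx : ψ x = 1
    · exact meas_neutral ψ hgen x hx n h _
    · exact meas_nonneutral ψ hgen x hx n h _
  refine key.congr fun w => ?_
  congr 1
  exact (cnt_sim (fun (g : H) (z : α) => g * ψ z) (bstep ψ) (fun g s => g = s.2) _ _
    (by rintro _ s z rfl; rfl) (by rintro _ s z rfl; exact Iff.rfl) w 1 (x, 1) rfl).1

include hgen in
/-- the image of a word in `H` -/
theorem meas_phase [Finite α] [Finite H] : Meas (fun w : List α => ev ψ w) := by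
  have hg' : Good ψ (fun _ : α => Cls.o) :=
    ⟨fun z h => by simp at h, fun z h => by simp at h, fun z h => by simp at h⟩
  have h := (meas_run_visits (rstep ψ (fun _ => Cls.o) 1) (rbase 1)
    (counterFreeOff_rstep ψ _ 1 hg' hgen) 1 (some false, 1)).comp (fun y => y.1.2)
  refine h.congr fun w => ?_
  simp only
  rw [run_rstep_snd, one_mul]

end Vale.Agent.Lib.P329
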