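import Vale.Agent.Lib.P329.Visit

/-!
# Counter-free automata and automata that are counter-free off one state
-/

namespace Vale.Agent.Lib.P329

variable {α Ω : Type}

/-- the `k`-fold repetition of the word `u` -/
def rep (k : ℕ) (u : List α) : List α := (List.replicate k u).flatten

theorem rep_zero (u : List α) : rep 0 u = [] := rfl

theorem rep_succ (k : ℕ) (u : List α) : rep (k + 1) u = u ++ rep k u := by
  simp [rep, List.replicate_succ]

theorem rep_add (k l : ℕ) (u : List α) : rep (k + l) u = rep k u ++ rep l u := by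
  induction k with
  | zero => simp [rep_zero]
  | succ k ih => rw [Nat.succ_add, rep_succ, rep_succ, ih, List.append_assoc]

theorem run_rep (δ : Ω → α → Ω) (u : List α) (k : ℕ) (x : Ω) :
    run δ x (rep k u) = (fun y => run δ y u)^[k] x := by
  induction k generalizing x with
  | zero => rfl
  | succ k ih => rw [rep_succ, run_append, ih, Function.iterate_succ_apply]

/-- a self-map of a finite set all of whose periodic points are fixed is eventually stationary -/
theorem iterate_stationary [Finite Ω] (f : Ω → Ω)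
    (h : ∀ x k, 0 < k → f^[k] x = x → f x = x) : ∃ n, ∀ x, f^[n + 1] x = f^[n] x := by
  have := Fintype.ofFinite Ω
  refine ⟨Fintype.card Ω, fun x => ?_⟩
  obtain ⟨i, j, hij, hfij⟩ := Fintype.exists_ne_map_eq_of_card_lt
    (fun i : Fin (Fintype.card Ω + 1) => f^[i] x) (by simp)
  -- without loss of generality `i < j`
  have main : ∀ i j : ℕ, i < j → i ≤ Fintype.card Ω → f^[i] x = f^[j] x →
      f^[Fintype.card Ω + 1] x = f^[Fintype.card Ω] x := by
    intro i j hlt hi he
    have hfix : f (f^[i] x) = f^[i] x := by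
      apply h _ (j - i) (by omega)
      rw [← Function.iterate_add_apply, Nat.sub_add_cancel hlt.le, he]
    have hall : ∀ m, f^[i + m] x = f^[i] x := by
      intro m
      induction m with
      | zero => rfl
      | succ m ihm => rw [← add_assoc, Function.iterate_succ_apply', ihm, hfix]
    have e1 := hall (Fintype.card Ω - i)
    have e2 := hall (Fintype.card Ω + 1 - i)
    rw [show i + (Fintype.card Ω - i) = Fintype.card Ω by omega] at e1
    rw [show i + (Fintype.card Ω + 1 - i) = Fintype.card Ω + 1 by omega] at e2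
    rw [e1, e2]
  have hi := i.2
  have hj := j.2
  rcases lt_or_gt_of_ne (fun h => hij (Fin.ext h) : (i : ℕ) ≠ j) with hlt | hlt
  · exact main i j hlt (by omega) hfij
  · exact main j i hlt (by omega) hfij.symm

section Full

variable (δ : Ω → α → Ω)

/-- the transformation induced by a letter, in the opposite of the monoid of self-maps -/
def trLetter (a : α) : (Function.End Ω)ᵐᵒᵖ := MulOpposite.op (fun x => δ x a)

theorem ev_trLetter (w : List α) :
    ev (trLetter δ) w = MulOpposite.op (fun x => run δ x w : Function.End Ω) := by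
  induction w with
  | nil => rfl
  | cons a w ih =>
    rw [ev_cons, ih]
    rfl

theorem ev_rep {M : Type} [Monoid M] (φ : α → M) (k : ℕ) (u : List α) :
    ev φ (rep k u) = ev φ u ^ k := by
  induction k with
  | zero => simp [rep_zero, ev_nil]
  | succ k ih => rw [rep_succ, ev_append, ih, pow_succ']

/-- A counter-free complete deterministic automaton recognizes only star-free languages. -/
theorem starfree_run [Finite α] [Finite Ω]
    (hper : ∀ (u : List α) (x : Ω) (k : ℕ), 0 < k → run δ x (rep k u) = x → run δ x u = x)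
    (p q : Ω) : HeightLE 0 ({w | run δ p w = q} : Language α) := by
  have : Finite (Function.End Ω) := inferInstanceAs (Finite (Ω → Ω))
  let S : Submonoid (Function.End Ω)ᵐᵒᵖ := Submonoid.closure (Set.range (trLetter δ))
  have : Finite (Function.End Ω)ᵐᵒᵖ := Finite.of_equiv _ MulOpposite.opEquiv
  have : Finite S := Finite.of_injective (fun x : S => (x : (Function.End Ω)ᵐᵒᵖ))
    Subtype.val_injective
  let φ' : α → S := fun a => ⟨trLetter δ a, Submonoid.subset_closure ⟨a, rfl⟩⟩
  have hcoe : ∀ w, ((ev φ' w : S) : (Function.End Ω)ᵐᵒᵖ) = ev (trLetter δ) w := by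
    intro w
    induction w with
    | nil => rfl
    | cons a w ih => rw [ev_cons, ev_cons, Submonoid.coe_mul, ih]
  have hsurj : ∀ x : S, ∃ w, x = ev φ' w := by
    rintro ⟨x, hx⟩
    induction hx using Submonoid.closure_induction with
    | mem y hy =>
      obtain ⟨a, rfl⟩ := hy
      exact ⟨[a], Subtype.ext (by rw [hcoe, ev_singleton])⟩
    | one => exact ⟨[], rfl⟩
    | mul y z _ _ ihy ihz =>
      obtain ⟨u, hu⟩ := ihy
      obtain ⟨v, hv⟩ := ihz
      refine ⟨u ++ v, Subtype.ext ?_⟩
      rw [ev_append, Submonoid.coe_mul, ← hu, ← hv]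
  have hap : ∀ x : S, ∃ n : ℕ, x ^ (n + 1) = x ^ n := by
    intro x
    obtain ⟨u, rfl⟩ := hsurj x
    obtain ⟨n, hn⟩ := iterate_stationary (fun y => run δ y u) (by
      intro y k hk hy
      rw [← run_rep] at hy
      exact hper u y k hk hy)
    refine ⟨n, Subtype.ext ?_⟩
    rw [← ev_rep, ← ev_rep, hcoe, hcoe, ev_trLetter, ev_trLetter]
    congr 1
    funext y
    rw [run_rep, run_rep]
    exact hn y
  have h := heightLE_iUnion (n := 0)
    (fun m : S => (MulOpposite.unop (m : (Function.End Ω)ᵐᵒᵖ) : Ω → Ω) p = q)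
    (fun m => LE φ' m) (fun m _ => starfree_LE φ' hap m)
  refine h.of_iff fun w => ?_
  constructor
  · intro hw
    refine ⟨ev φ' w, ?_, rfl⟩
    rw [hcoe, ev_trLetter]
    exact hw
  · rintro ⟨m, hm, hw⟩
    have hw' : ev φ' w = m := hw
    rw [← hw', hcoe, ev_trLetter] at hm
    exact hm

end Full

section Off

variable (δ : Ω → α → Ω) (s₀ : Ω)

/-- The automaton is counter-free off the state `s₀`: whenever a power `u ^ k` (`k > 0`) labels a
loop at `x` that never meets `s₀`, the word `u` itself labels a loop at `x`. -/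
def CounterFreeOff : Prop :=
  ∀ (u : List α) (x : Ω) (k : ℕ), 0 < k → Avoid δ s₀ x x (rep k u) → run δ x u = x

open Classical in
/-- the automaton in which `s₀` has been made absorbing -/
noncomputable def absorb (p : Ω) (a : α) : Ω := if p = s₀ then s₀ else δ p a

theorem run_absorb_base (w : List α) : run (absorb δ s₀) s₀ w = s₀ := by
  induction w with
  | nil => rfl
  | cons a w ih => rw [run_cons, absorb, if_pos rfl, ih]

theorem avoid_iff_absorb {p : Ω} (hp : p ≠ s₀) (q : Ω) (w : List α) :
    Avoid δ s₀ p q w ↔ run (absorb δ s₀) p w = q ∧ q ≠ s₀ := by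
  induction w generalizing p with
  | nil =>
    change p = q ↔ p = q ∧ q ≠ s₀
    constructor
    · rintro rfl; exact ⟨rfl, hp⟩
    · exact fun h => h.1
  | cons a w ih =>
    change (δ p a ≠ s₀ ∧ Avoid δ s₀ (δ p a) q w) ↔ _
    rw [run_cons, absorb, if_neg hp]
    by_cases ha : δ p a = s₀
    · rw [ha, run_absorb_base]
      constructor
      · intro h; exact absurd rfl h.1
      · intro h; exact absurd h.1.symm h.2
    · rw [ih ha]
      exact ⟨fun h => h.2, fun h => ⟨ha, h⟩⟩

theorem avoid_append {p q : Ω} {u v : List α} :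
    Avoid δ s₀ p q (u ++ v) ↔ Avoid δ s₀ p (run δ p u) u ∧ Avoid δ s₀ (run δ p u) q v := by
  induction u generalizing p with
  | nil => exact ⟨fun h => ⟨rfl, h⟩, fun h => h.2⟩
  | cons a u ih =>
    change (δ p a ≠ s₀ ∧ Avoid δ s₀ (δ p a) q (u ++ v)) ↔
      ((δ p a ≠ s₀ ∧ Avoid δ s₀ (δ p a) (run δ (δ p a) u) u) ∧ Avoid δ s₀ (run δ (δ p a) u) q v)
    rw [ih]
    tauto

theorem LA_starfree_of_counterFree [Finite α] [Finite Ω] (hcf : CounterFreeOff δ s₀) (p q : Ω) :
    HeightLE 0 (LA δ s₀ p q) := by
  have hper : ∀ (u : List α) (x : Ω) (k : ℕ), 0 < k → run (absorb δ s₀) x (rep k u) = x →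
      run (absorb δ s₀) x u = x := by
    intro u x k hk hx
    by_cases hxs : x = s₀
    · rw [hxs]; exact run_absorb_base δ s₀ u
    · have h1 : Avoid δ s₀ x x (rep k u) := (avoid_iff_absorb δ s₀ hxs x _).2 ⟨hx, hxs⟩
      have h2 := hcf u x k hk h1
      obtain ⟨k', rfl⟩ : ∃ k', k = k' + 1 := ⟨k - 1, by omega⟩
      rw [rep_succ, avoid_append, h2] at h1
      exact ((avoid_iff_absorb δ s₀ hxs x _).1 h1.1).1
  have hne : ∀ p, p ≠ s₀ → ∀ q, HeightLE 0 (LA δ s₀ p q) := by
    intro p hp q
    by_cases hq : q = s₀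
    · exact heightLE_zero.of_iff fun w =>
        ⟨fun h => absurd hq ((avoid_iff_absorb δ s₀ hp q w).1 h).2,
          fun h => absurd h (Language.notMem_zero w)⟩
    · exact (starfree_run (absorb δ s₀) hper p q).of_iff fun w =>
        ⟨fun h => ((avoid_iff_absorb δ s₀ hp q w).1 h).1,
          fun h => (avoid_iff_absorb δ s₀ hp q w).2 ⟨h, hq⟩⟩
  by_cases hp : p = s₀
  · subst hp
    have h1 : HeightLE 0 ({w | w ∈ (1 : Language α) ∧ p = q} : Language α) := by
      by_cases hpq : p = q
      · exact heightLE_one.of_iff fun w => ⟨fun h => h.1, fun h => ⟨h, hpq⟩⟩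
      · exact heightLE_zero.of_iff fun w =>
          ⟨fun h => absurd h.2 hpq, fun h => absurd h (Language.notMem_zero w)⟩
    have h2 := heightLE_iUnion (n := 0) (fun a => δ p a ≠ p)
      (fun a => ({[a]} : Language α) * LA δ p (δ p a) q)
      (fun a ha => (heightLE_char a).mul (hne _ ha q))
    refine (h1.add h2).of_iff fun w => ?_
    constructor
    · intro h
      cases w with
      | nil => exact Or.inl ⟨rfl, h⟩
      | cons a w => exact Or.inr ⟨a, h.1, Language.mem_mul.2 ⟨[a], rfl, w, h.2, rfl⟩⟩
    · rintro (⟨h1, h2⟩ | ⟨a, ha, h2⟩)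
      · have : w = [] := h1
        subst this
        exact h2
      · obtain ⟨x, hx, y, hy, rfl⟩ := Language.mem_mul.1 h2
        have : x = [a] := hx
        subst this
        exact ⟨ha, hy⟩
  · exact hne p hp q

/-- **Visit counting.**  If the automaton is counter-free off `s₀`, then the end state of the run
from `p` together with the number of visits of `s₀` modulo `n` is determined by languages of
generalized star height at most one. -/
theorem meas_run_visits [Finite α] [Finite Ω] (hcf : CounterFreeOff δ s₀) (n : ℕ) [NeZero n]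
    (p : Ω) : Meas (fun w : List α => (run δ p w, (visits δ s₀ p w : ZMod n))) :=
  meas_run_visits_of δ s₀ (LA_starfree_of_counterFree δ s₀ hcf) n p

end Off

end Vale.Agent.Lib.P329
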