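import Mathlib

/-!
# Generalized regular expressions and generalized star height
-/

namespace Vale.Agent.Lib.P329

/-- Generalized regular expressions over the alphabet `α`: constants `0`, `1`, letters,
union, concatenation, complement and Kleene star. -/
inductive GRE (α : Type) : Type
  | zero : GRE α
  | one : GRE α
  | char : α → GRE α
  | plus : GRE α → GRE α → GRE α
  | comp : GRE α → GRE α → GRE α
  | neg : GRE α → GRE α
  | star : GRE α → GRE α

namespace GRE

variable {α : Type}

/-- The language denoted by a generalized regular expression
(complement is taken in the set of all words over `α`). -/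
def lang : GRE α → Language α
  | zero => 0
  | one => 1
  | char a => {[a]}
  | plus P Q => P.lang + Q.lang
  | comp P Q => P.lang * Q.lang
  | neg P => (P.lang)ᶜ
  | star P => KStar.kstar P.lang

/-- The star height of a generalized regular expression. -/
def sh : GRE α → ℕ
  | zero => 0
  | one => 0
  | char _ => 0
  | plus P Q => max P.sh Q.sh
  | comp P Q => max P.sh Q.sh
  | neg P => P.sh
  | star P => P.sh + 1

end GRE

/-- `L` has generalized star height at most `n`: it is denoted by a generalized regular
expression of star height at most `n`. -/
def HeightLE {α : Type} (n : ℕ) (L : Language α) : Prop := ∃ P : GRE α, P.lang = L ∧ P.sh ≤ n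

end Vale.Agent.Lib.P329
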