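import Vale.Agent.Lib.P329.Extension

/-!
# Quotients that are elementary abelian
-/

namespace Vale.Agent.Lib.P329

variable {α : Type}

theorem cnt_false {Ω : Type} (δ : Ω → α → Ω) (s : Ω) (w : List α) :
    cnt δ (fun _ _ => False) s w = 0 := by
  induction w generalizing s with
  | nil => rfl
  | cons z w ih => rw [cnt_cons, ih]; simp

/-- the number of occurrences of a letter, counted along the run of any automaton -/
theorem meas_occ_any [Finite α] {Ω : Type} (δ : Ω → α → Ω) (s : Ω) (x : α) (n : ℕ) [NeZero n] :
    Meas (fun w : List α => (cnt δ (fun _ z => z = x) s w : ZMod n)) := by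
  have hgen : ∀ g : Unit, g ≠ 1 → ∀ d : Unit, ∃ j : ℕ, g ^ j = d := fun g hg => absurd rfl hg
  refine (meas_count (fun _ : α => (1 : Unit)) hgen n 1 x).congr fun w => ?_
  congr 1
  exact (cnt_sim δ (fun (g : Unit) (_ : α) => g * 1) (fun _ _ => True) _ _
    (fun _ _ _ _ => trivial) (fun _ _ z _ => by simp) w s 1 trivial).1

/-- the count of the letter `x` read at phase `h` -/
noncomputable def phaseCount {H : Type} [Group H] (ψ : α → H) (h : H) (x : α) (w : List α) : ℕ :=
  cnt (fun (g : H) (z : α) => g * ψ z) (fun g z => g = h ∧ z = x) 1 w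

open Classical in
theorem phaseCount_quotient {H : Type} [Group H] [Fintype H] (L : Subgroup H) [L.Normal]
    (ψ : α → H) (h : H) (x : α) (w : List α) :
    phaseCount (fun z => (ψ z : H ⧸ L)) (h : H ⧸ L) x w =
      ∑ h' : H, if h'⁻¹ * h ∈ L then phaseCount ψ h' x w else 0 := by
  have e1 : phaseCount (fun z => (ψ z : H ⧸ L)) (h : H ⧸ L) x w =
      cnt (fun (g : H) (z : α) => g * ψ z) (fun g z => (g : H ⧸ L) = h ∧ z = x) 1 w :=
    (cnt_sim (fun (q : H ⧸ L) (z : α) => q * (ψ z : H ⧸ L)) (fun (g : H) (z : α) => g * ψ z)
      (fun q g => q = (g : H ⧸ L)) _ _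
      (by rintro _ g z rfl; exact (QuotientGroup.mk_mul L g (ψ z)).symm)
      (by rintro _ g z rfl; exact Iff.rfl) w 1 1 rfl).1
  rw [e1, cnt_sum_fiber _ _ (fun g _ => g)]
  refine Finset.sum_congr rfl (fun h' _ => ?_)
  by_cases hh : h'⁻¹ * h ∈ L
  · rw [if_pos hh]
    refine cnt_congr _ (fun g z => ?_) _ _
    constructor
    · rintro ⟨⟨-, h2⟩, h3⟩; exact ⟨h3, h2⟩
    · rintro ⟨rfl, h2⟩; exact ⟨⟨QuotientGroup.eq.2 hh, h2⟩, rfl⟩
  · rw [if_neg hh, ← cnt_false (fun (g : H) (z : α) => g * ψ z) 1 w]
    refine cnt_congr _ (fun g z => ?_) _ _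
    constructor
    · rintro ⟨⟨h1, -⟩, rfl⟩; exact hh (QuotientGroup.eq.1 h1)
    · exact False.elim

theorem phaseCount_total {H : Type} [Group H] [Fintype H] (ψ : α → H) (x : α) (w : List α) :
    cnt (fun (g : H) (z : α) => g * ψ z) (fun _ z => z = x) 1 w = ∑ h' : H, phaseCount ψ h' x w := by
  rw [cnt_sum_fiber _ _ (fun g _ => g)]
  exact Finset.sum_congr rfl (fun h' _ => cnt_congr _ (fun g z => and_comm) _ _)

theorem meas_phaseCount_elem [Finite α] (p : ℕ) (hp : p.Prime) (k : ℕ) :
    ∀ (H : Type) [Group H] [Finite H], Nat.card H = k → (∀ a b : H, a * b = b * a) →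
      (∀ a : H, a ^ p = 1) → ∀ (ψ : α → H) (n : ℕ) [NeZero n] (h : H) (x : α),
        Meas (fun w : List α => (phaseCount ψ h x w : ZMod n)) := by
  classical
  induction k using Nat.strong_induction_on with
  | _ k ih =>
    intro H _ _ hk hcomm hexp ψ n _ h x
    have : Fact p.Prime := ⟨hp⟩
    by_cases hgen : ∀ g : H, g ≠ 1 → ∀ d : H, ∃ j : ℕ, g ^ j = d
    · exact meas_count ψ hgen n h x
    · push Not at hgen
      obtain ⟨g, hg, d, hd⟩ := hgen
      have := Fintype.ofFinite H
      have hnormal : ∀ L : Subgroup H, L.Normal := fun L =>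
        ⟨fun a ha b => by rw [hcomm b a, mul_inv_cancel_right]; exact ha⟩
      have hcardz : ∀ y : H, y ≠ 1 → Nat.card (Subgroup.zpowers y) = p := fun y hy => by
        rw [Nat.card_zpowers]; exact orderOf_eq_prime (hexp y) hy
      -- the family of all subgroups of order `p`
      let 𝓛 := {L : Subgroup H // Nat.card L = p}
      have : Fintype 𝓛 := Fintype.ofFinite _
      have hd1 : d ≠ 1 := fun h1 => hd 0 (by rw [pow_zero, h1])
      have htwo : 1 < Fintype.card 𝓛 := by
        rw [Fintype.one_lt_card_iff]
        refine ⟨⟨Subgroup.zpowers g, hcardz g hg⟩, ⟨Subgroup.zpowers d, hcardz d hd1⟩, ?_⟩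
        intro he
        have he' : Subgroup.zpowers g = Subgroup.zpowers d := congrArg Subtype.val he
        have hmem : d ∈ Subgroup.zpowers g := by rw [he']; exact Subgroup.mem_zpowers d
        rw [← mem_powers_iff_mem_zpowers] at hmem
        obtain ⟨j, hj⟩ := hmem
        exact hd j hj
      obtain ⟨m, hm⟩ : ∃ m, Fintype.card 𝓛 = m + 1 := ⟨Fintype.card 𝓛 - 1, by omega⟩
      have hm0 : 0 < m := by omega
      have : NeZero (m * n) := ⟨Nat.mul_ne_zero hm0.ne' (NeZero.ne n)⟩
      -- the counts in the quotients
      have hquot : ∀ L : 𝓛, Meas (fun w : List α =>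
          ((∑ h' : H, if h'⁻¹ * h ∈ L.1 then phaseCount ψ h' x w else 0 : ℕ) : ZMod (m * n))) := by
        intro L
        have := hnormal L.1
        have hlt : Nat.card (H ⧸ L.1) < k := by
          have e := Subgroup.card_eq_card_quotient_mul_card_subgroup L.1
          rw [hk, L.2] at e
          have hpos : 0 < Nat.card (H ⧸ L.1) := Nat.card_pos
          have := hp.two_le
          nlinarith
        have h1 := ih _ hlt (H ⧸ L.1) rfl
          (by
            intro a b
            induction a using QuotientGroup.induction_on with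
            | H a =>
              induction b using QuotientGroup.induction_on with
              | H b => rw [← QuotientGroup.mk_mul, ← QuotientGroup.mk_mul, hcomm])
          (by
            intro a
            induction a using QuotientGroup.induction_on with
            | H a => rw [← QuotientGroup.mk_pow, hexp]; rfl)
          (fun z => (ψ z : H ⧸ L.1)) (m * n) (h : H ⧸ L.1) x
        refine h1.congr fun w => ?_
        rw [phaseCount_quotient]
      have hsum : Meas (fun w : List α => ∑ L : 𝓛,
          ((∑ h' : H, if h'⁻¹ * h ∈ L.1 then phaseCount ψ h' x w else 0 : ℕ) : ZMod (m * n))) :=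
        Meas.sum _ (fun L _ => hquot L)
      have hocc := meas_occ_any (fun (g : H) (z : α) => g * ψ z) 1 x (m * n)
      have hmain : Meas (fun w : List α => ((m * phaseCount ψ h x w : ℕ) : ZMod (m * n))) := by
        refine (hsum.sub hocc).congr fun w => ?_
        rw [phaseCount_total]
        have key : ∑ L : 𝓛, (∑ h' : H, if h'⁻¹ * h ∈ L.1 then phaseCount ψ h' x w else 0) =
            m * phaseCount ψ h x w + ∑ h' : H, phaseCount ψ h' x w := by
          rw [Finset.sum_comm]
          have hin : ∀ h' : H, (∑ L : 𝓛, if h'⁻¹ * h ∈ L.1 then phaseCount ψ h' x w else 0) =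
              (if h' = h then m * phaseCount ψ h x w else 0) + phaseCount ψ h' x w := by
            intro h'
            by_cases hh : h' = h
            · subst hh
              simp only [inv_mul_cancel, one_mem, if_true, Finset.sum_const, Finset.card_univ, hm,
                smul_eq_mul]
              ring
            · rw [if_neg hh, zero_add]
              have hu : h'⁻¹ * h ≠ 1 := by
                intro h1
                exact hh (inv_mul_eq_one.1 h1)
              rw [Finset.sum_eq_single (⟨Subgroup.zpowers (h'⁻¹ * h), hcardz _ hu⟩ : 𝓛)]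
              · rw [if_pos (Subgroup.mem_zpowers _)]
              · intro L _ hL
                rw [if_neg]
                intro hmem
                apply hL
                apply Subtype.ext
                symm
                refine Subgroup.eq_of_le_of_card_ge ?_ ?_
                · rw [Subgroup.zpowers_le]; exact hmem
                · rw [L.2, hcardz _ hu]
              · intro h1; exact absurd (Finset.mem_univ _) h1
          simp only [hin]
          rw [Finset.sum_add_distrib, Finset.sum_ite_eq' Finset.univ h]
          simp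
        have key2 := congrArg (Nat.cast : ℕ → ZMod (m * n)) key
        push_cast at key2 ⊢
        rw [key2]
        ring
      refine (hmain.comp (fun y => ((y.val / m : ℕ) : ZMod n))).congr fun w => ?_
      exact (cast_div_trick _ _ _ hm0).symm

/-- every language recognized by a finite commutative group has height at most one -/
theorem meas_ev_comm [Finite α] {H : Type} [Group H] [Finite H] (hcomm : ∀ a b : H, a * b = b * a)
    (ψ : α → H) : Meas (fun w : List α => ev ψ w) := by
  have hgen : ∀ g : H ⧸ (⊤ : Subgroup H), g ≠ 1 → ∀ d : H ⧸ (⊤ : Subgroup H),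
      ∃ j : ℕ, g ^ j = d := by
    intro g hg
    have := QuotientGroup.subsingleton_quotient_top (G := H)
    exact absurd (Subsingleton.elim g 1) hg
  exact meas_of_quotient (⊤ : Subgroup H) ψ (fun a _ b _ => hcomm a b)
    (meas_phase _ hgen) (fun n _ hx => meas_count _ hgen n hx.1 hx.2)

/-- **Main theorem, general form.**  Every language recognized by a finite group `G` with a
commutative normal subgroup `N` such that `G / N` is commutative of prime exponent has generalized
star height at most one. -/
theorem heightLE_of_elementary [Finite α] {G : Type} [Group G] [Finite G] (N : Subgroup G)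
    [N.Normal] (hN : ∀ a ∈ N, ∀ b ∈ N, a * b = b * a) (p : ℕ) (hp : p.Prime)
    (hcomm : ∀ a b : G, a * b * a⁻¹ * b⁻¹ ∈ N) (hexp : ∀ a : G, a ^ p ∈ N) (φ : α → G)
    (S : Set G) : HeightLE 1 ({w | ev φ w ∈ S} : Language α) := by
  have hc : ∀ a b : G ⧸ N, a * b = b * a := by
    intro a b
    induction a using QuotientGroup.induction_on with
    | H a =>
      induction b using QuotientGroup.induction_on with
      | H b =>
        rw [← QuotientGroup.mk_mul, ← QuotientGroup.mk_mul, QuotientGroup.eq]
        have h1 := hcomm b⁻¹ a⁻¹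
        have e : (a * b)⁻¹ * (b * a) = b⁻¹ * a⁻¹ * b⁻¹⁻¹ * a⁻¹⁻¹ := by group
        rw [e]; exact h1
  have he : ∀ a : G ⧸ N, a ^ p = 1 := by
    intro a
    induction a using QuotientGroup.induction_on with
    | H a => rw [← QuotientGroup.mk_pow, QuotientGroup.eq_one_iff]; exact hexp a
  exact (meas_of_quotient N φ hN (meas_ev_comm hc (quo N φ))
    (fun n _ hx => meas_phaseCount_elem p hp _ (G ⧸ N) rfl hc he (quo N φ) n hx.1 hx.2)).preimage S

end Vale.Agent.Lib.P329
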