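import Vale.Agent.Lib.P329.Count

/-!
# Extensions of a group by a commutative normal subgroup
-/

namespace Vale.Agent.Lib.P329

variable {α G : Type} [Group G] (N : Subgroup G) [N.Normal] (φ : α → G)

/-- the images of the letters in the quotient -/
def quo (z : α) : G ⧸ N := (φ z : G ⧸ N)

/-- a section of the quotient map -/
noncomputable def sec (q : G ⧸ N) : G := Quotient.out q

theorem mk_sec (q : G ⧸ N) : ((sec N q : G) : G ⧸ N) = q := QuotientGroup.out_eq' q

/-- the element of the normal subgroup attached to a step -/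
noncomputable def stepElt (hx : (G ⧸ N) × α) : G :=
  sec N hx.1 * φ hx.2 * (sec N (hx.1 * quo N φ hx.2))⁻¹

theorem stepElt_mem (hx : (G ⧸ N) × α) : stepElt N φ hx ∈ N := by
  rw [← QuotientGroup.eq_one_iff]
  unfold stepElt
  rw [QuotientGroup.mk_mul, QuotientGroup.mk_mul, QuotientGroup.mk_inv, mk_sec, mk_sec]
  unfold quo
  group

/-- the count of the steps `(h, x)` along the run in the quotient starting at `q` -/
noncomputable def stepCount (hx : (G ⧸ N) × α) (q : G ⧸ N) (w : List α) : ℕ :=
  cnt (fun (g : G ⧸ N) (z : α) => g * quo N φ z) (fun g z => g = hx.1 ∧ z = hx.2) q w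

theorem telescoping [Fintype α] [Fintype (G ⧸ N)] (hN : ∀ a ∈ N, ∀ b ∈ N, a * b = b * a)
    (q : G ⧸ N) (w : List α) :
    letI : CommGroup N :=
      { (inferInstance : Group N) with mul_comm := fun a b => Subtype.ext (hN a a.2 b b.2) }
    (((∏ hx : (G ⧸ N) × α, (⟨stepElt N φ hx, stepElt_mem N φ hx⟩ : N) ^ stepCount N φ hx q w : N)) : G)
      = sec N q * ev φ w * (sec N (q * ev (quo N φ) w))⁻¹ := by
  classical
  letI : CommGroup N :=
    { (inferInstance : Group N) with mul_comm := fun a b => Subtype.ext (hN a a.2 b b.2) }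
  induction w generalizing q with
  | nil =>
    simp [stepCount, cnt_nil, ev_nil]
  | cons z w ih =>
    have h1 : ∀ hx : (G ⧸ N) × α, stepCount N φ hx q (z :: w) =
        ind (q = hx.1 ∧ z = hx.2) + stepCount N φ hx (q * quo N φ z) w := fun hx => rfl
    simp only [h1, pow_add]
    rw [Finset.prod_mul_distrib, Subgroup.coe_mul, ih]
    have h2 : (∏ hx : (G ⧸ N) × α,
        (⟨stepElt N φ hx, stepElt_mem N φ hx⟩ : N) ^ ind (q = hx.1 ∧ z = hx.2)) =
        ⟨stepElt N φ (q, z), stepElt_mem N φ (q, z)⟩ := by
      rw [Finset.prod_eq_single (q, z)]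
      · simp [ind]
      · rintro ⟨h, x⟩ - hne
        have : ¬ (q = h ∧ z = x) := by
          rintro ⟨rfl, rfl⟩; exact hne rfl
        simp [ind, this]
      · intro h; exact absurd (Finset.mem_univ _) h
    rw [h2]
    simp only [stepElt, ev_cons]
    group

/-- If the image in the quotient by a commutative normal subgroup and all step counts are
determined by languages of height at most one, so is the image in the group itself. -/
theorem meas_of_quotient [Finite α] [Finite G] (hN : ∀ a ∈ N, ∀ b ∈ N, a * b = b * a)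
    (hp : Meas (fun w : List α => ev (quo N φ) w))
    (hc : ∀ (n : ℕ) [NeZero n] (hx : (G ⧸ N) × α),
      Meas (fun w : List α => (stepCount N φ hx 1 w : ZMod n))) :
    Meas (fun w : List α => ev φ w) := by
  classical
  have := Fintype.ofFinite α
  have := Fintype.ofFinite (G ⧸ N)
  letI : CommGroup N :=
    { (inferInstance : Group N) with mul_comm := fun a b => Subtype.ext (hN a a.2 b b.2) }
  have hM : NeZero (Nat.card N) := ⟨Nat.card_pos.ne'⟩
  have h1 : Meas (fun w : List α => (fun hx : (G ⧸ N) × α =>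
      (stepCount N φ hx 1 w : ZMod (Nat.card N)), ev (quo N φ) w)) :=
    (Meas.pi (fun hx => hc (Nat.card N) hx)).prodMk hp
  have h2 := h1.comp (fun y : ((G ⧸ N) × α → ZMod (Nat.card N)) × (G ⧸ N) =>
    (sec N 1)⁻¹ * (((∏ hx : (G ⧸ N) × α,
      (⟨stepElt N φ hx, stepElt_mem N φ hx⟩ : N) ^ (y.1 hx).val : N)) : G) * sec N y.2)
  refine h2.congr fun w => ?_
  simp only
  have h3 : ∀ hx : (G ⧸ N) × α, (⟨stepElt N φ hx, stepElt_mem N φ hx⟩ : N) ^
      ((stepCount N φ hx 1 w : ZMod (Nat.card N))).val =
      (⟨stepElt N φ hx, stepElt_mem N φ hx⟩ : N) ^ stepCount N φ hx 1 w := by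
    intro hx
    rw [ZMod.val_natCast, pow_mod_natCard]
  simp only [h3]
  rw [telescoping N φ hN 1 w, one_mul]
  group

/-- **Main theorem.**  Every language recognized by a finite group with a commutative normal
subgroup of prime index has generalized star height at most one. -/
theorem heightLE_of_prime_index [Finite α] [Finite G] (hN : ∀ a ∈ N, ∀ b ∈ N, a * b = b * a)
    (hp : N.index.Prime) (S : Set G) :
    HeightLE 1 ({w | ev φ w ∈ S} : Language α) := by
  have : Fact N.index.Prime := ⟨hp⟩
  have hgen : ∀ g : G ⧸ N, g ≠ 1 → ∀ d : G ⧸ N, ∃ j : ℕ, g ^ j = d := by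
    intro g hg d
    exact Submonoid.mem_powers_iff _ _ |>.1
      (mem_powers_of_prime_card (Subgroup.index_eq_card N).symm hg)
  exact (meas_of_quotient N φ hN (meas_phase (quo N φ) hgen)
    (fun n _ hx => meas_count (quo N φ) hgen n hx.1 hx.2)).preimage S

end Vale.Agent.Lib.P329
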