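import Vale.Agent.Lib.P329.Automaton

/-!
# Generalized star height at most one for automata that are partially ordered off one state
-/

namespace Vale.Agent.Lib.P329

variable {α Ω : Type} (δ : Ω → α → Ω) (s₀ : Ω)

theorem avoid_loops {p q : Ω} (hp : p ≠ s₀) {u v : List α} (hu : ∀ a ∈ u, δ p a = p)
    (hv : Avoid δ s₀ p q v) : Avoid δ s₀ p q (u ++ v) := by
  induction u with
  | nil => exact hv
  | cons a u ih =>
    have ha : δ p a = p := hu a (by simp)
    refine ⟨by rw [ha]; exact hp, ?_⟩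
    rw [ha]
    exact ih (fun b hb => hu b (by simp [hb]))

/-- words that leave `p` at once (or stop there) -/
def LX (p q : Ω) : Language α :=
  {w | (w ∈ (1 : Language α) ∧ p = q) ∨
    ∃ a, (δ p a ≠ p ∧ δ p a ≠ s₀) ∧ w ∈ ({[a]} : Language α) * LA δ s₀ (δ p a) q}

theorem LA_eq_of_ne {p : Ω} (hp : p ≠ s₀) (q : Ω) (w : List α) :
    w ∈ LA δ s₀ p q ↔ w ∈ Letters (fun a => δ p a = p) * LX δ s₀ p q := by
  constructor
  · intro h
    induction w with
    | nil =>
      exact Language.mem_mul.2 ⟨[], by intro a ha; simp at ha, [], Or.inl ⟨rfl, h⟩, rfl⟩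
    | cons a w ih =>
      by_cases ha : δ p a = p
      · have h2 : Avoid δ s₀ p q w := by
          have := h.2
          rwa [ha] at this
        obtain ⟨u, hu, v, hv, rfl⟩ := Language.mem_mul.1 (ih h2)
        refine Language.mem_mul.2 ⟨a :: u, ?_, v, hv, rfl⟩
        intro b hb
        rcases List.mem_cons.1 hb with rfl | hb
        · exact ha
        · exact hu b hb
      · refine Language.mem_mul.2 ⟨[], by intro b hb; simp at hb, a :: w, Or.inr ⟨a, ⟨ha, h.1⟩,
          Language.mem_mul.2 ⟨[a], rfl, w, h.2, rfl⟩⟩, rfl⟩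
  · intro h
    obtain ⟨u, hu, v, hv, rfl⟩ := Language.mem_mul.1 h
    refine avoid_loops δ s₀ hp hu ?_
    rcases hv with ⟨h1, h2⟩ | ⟨a, ⟨-, ha⟩, h2⟩
    · have : v = [] := h1
      subst this
      exact h2
    · obtain ⟨x, hx, y, hy, rfl⟩ := Language.mem_mul.1 h2
      have : x = [a] := hx
      subst this
      exact ⟨ha, hy⟩

theorem LA_eq_base (q : Ω) (w : List α) :
    w ∈ LA δ s₀ s₀ q ↔ (w ∈ (1 : Language α) ∧ s₀ = q) ∨
      ∃ a, δ s₀ a ≠ s₀ ∧ w ∈ ({[a]} : Language α) * LA δ s₀ (δ s₀ a) q := by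
  constructor
  · intro h
    cases w with
    | nil => exact Or.inl ⟨rfl, h⟩
    | cons a w => exact Or.inr ⟨a, h.1, Language.mem_mul.2 ⟨[a], rfl, w, h.2, rfl⟩⟩
  · rintro (⟨h1, h2⟩ | ⟨a, ha, h2⟩)
    · have : w = [] := h1
      subst this
      exact h2
    · obtain ⟨x, hx, y, hy, rfl⟩ := Language.mem_mul.1 h2
      have : x = [a] := hx
      subst this
      exact ⟨ha, hy⟩

theorem heightLE_and_prop {n : ℕ} {L : Language α} (hL : HeightLE n L) (P : Prop) :
    HeightLE n ({w | w ∈ L ∧ P} : Language α) := by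
  by_cases hP : P
  · exact hL.of_iff fun w => ⟨fun h => h.1, fun h => ⟨h, hP⟩⟩
  · exact heightLE_zero.of_iff fun w =>
      ⟨fun h => absurd h.2 hP, fun h => absurd h (Language.notMem_zero w)⟩

section

variable [Finite α] (r : Ω → ℕ)
  (hr : ∀ x a, x ≠ s₀ → δ x a ≠ s₀ → δ x a ≠ x → r (δ x a) < r x)

include hr in
theorem LA_starfree_of_ne (q : Ω) : ∀ p, p ≠ s₀ → HeightLE 0 (LA δ s₀ p q) := by
  intro p
  induction hn : r p using Nat.strong_induction_on generalizing p with
  | _ n ih =>
    intro hp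
    have hX : HeightLE 0 (LX δ s₀ p q) := by
      have h1 := heightLE_and_prop (heightLE_one (α := α) (n := 0)) (p = q)
      have h2 := heightLE_iUnion (n := 0) (fun a => δ p a ≠ p ∧ δ p a ≠ s₀)
        (fun a => ({[a]} : Language α) * LA δ s₀ (δ p a) q)
        (fun a ha => (heightLE_char a).mul
          (ih _ (by rw [← hn]; exact hr p a hp ha.2 ha.1) (δ p a) rfl ha.2))
      exact (h1.add h2).of_iff fun w => Iff.rfl
    exact ((heightLE_letters (fun a => δ p a = p)).mul hX).of_iff (LA_eq_of_ne δ s₀ hp q)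

include hr in
theorem LA_starfree (p q : Ω) : HeightLE 0 (LA δ s₀ p q) := by
  by_cases hp : p = s₀
  · subst hp
    have h1 := heightLE_and_prop (heightLE_one (α := α) (n := 0)) (p = q)
    have h2 := heightLE_iUnion (n := 0) (fun a => δ p a ≠ p)
      (fun a => ({[a]} : Language α) * LA δ p (δ p a) q)
      (fun a ha => (heightLE_char a).mul (LA_starfree_of_ne δ p r hr q _ ha))
    exact (h1.add h2).of_iff (LA_eq_base δ p q)
  · exact LA_starfree_of_ne δ s₀ r hr q p hp

include hr in
theorem LH_starfree [Finite Ω] (p : Ω) : HeightLE 0 (LH δ s₀ p) := by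
  have h := heightLE_iUnion (n := 0) (fun xa : Ω × α => δ xa.1 xa.2 = s₀)
    (fun xa => LA δ s₀ p xa.1 * ({[xa.2]} : Language α))
    (fun xa _ => (LA_starfree δ s₀ r hr p xa.1).mul (heightLE_char xa.2))
  refine h.of_iff fun w => ?_
  change Hit δ s₀ p w ↔ _
  rw [hit_iff]
  constructor
  · rintro ⟨x, a, u, rfl, hu, hx⟩
    exact ⟨(x, a), hx, Language.mem_mul.2 ⟨u, hu, [a], rfl, rfl⟩⟩
  · rintro ⟨⟨x, a⟩, hx, hw⟩
    obtain ⟨u, hu, v, hv, rfl⟩ := Language.mem_mul.1 hw
    have : v = [a] := hv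
    subst this
    exact ⟨x, a, u, rfl, hu, hx⟩

include hr in
/-- the language of all words leading from `p` to `q` has generalized star height at most one -/
theorem heightLE_run [Finite Ω] (p q : Ω) :
    HeightLE 1 ({w | run δ p w = q} : Language α) := by
  have hA := fun p q => (LA_starfree δ s₀ r hr p q).mono (Nat.zero_le 1)
  have hH := fun p => (LH_starfree δ s₀ r hr p).mono (Nat.zero_le 1)
  have hK := (LH_starfree δ s₀ r hr s₀).kstar
  exact ((hA p q).add (((hH p).mul hK).mul (hA s₀ q))).of_iff (run_eq_iff δ s₀ p q)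

include hr in
/-- **Main theorem.**  Every language recognized by the transition monoid of the automaton
has generalized star height at most one. -/
theorem heightLE_transition [Finite Ω] (S : Set (Ω → Ω)) :
    HeightLE 1 ({w | (fun x => run δ x w) ∈ S} : Language α) := by
  have h := heightLE_iUnion (n := 1) (fun m : Ω → Ω => m ∈ S)
    (fun m => ({w | ∀ x, w ∈ ({w | run δ x w = m x} : Language α)} : Language α))
    (fun m _ => heightLE_iInter _ (fun x => heightLE_run δ s₀ r hr x (m x)))
  refine h.of_iff fun w => ?_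
  constructor
  · intro hw
    exact ⟨_, hw, fun x => rfl⟩
  · rintro ⟨m, hm, hw⟩
    have : (fun x => run δ x w) = m := funext hw
    change (fun x => run δ x w) ∈ S
    rw [this]; exact hm

end

end Vale.Agent.Lib.P329
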