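import Vale.Agent.Lib.P329.Closure

/-!
# Functions on words all of whose level sets have generalized star height at most one
-/

namespace Vale.Agent.Lib.P329

variable {α : Type}

/-- all level sets of `f` have generalized star height at most one -/
def Meas {T : Type*} (f : List α → T) : Prop :=
  ∀ t, HeightLE 1 ({w | f w = t} : Language α)

theorem Meas.preimage {T : Type*} [Finite T] {f : List α → T} (hf : Meas f) (S : Set T) :
    HeightLE 1 ({w | f w ∈ S} : Language α) :=
  (heightLE_iUnion (fun t => t ∈ S) (fun t => ({w | f w = t} : Language α))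
    (fun t _ => hf t)).of_iff fun w =>
      ⟨fun h => ⟨f w, h, rfl⟩, fun ⟨t, ht, hw⟩ => by
        have hw' : f w = t := hw
        change f w ∈ S
        rw [hw']; exact ht⟩

theorem Meas.comp {T T' : Type*} [Finite T] {f : List α → T} (hf : Meas f) (g : T → T') :
    Meas (fun w => g (f w)) := fun t => hf.preimage {x | g x = t}

theorem Meas.prodMk {T T' : Type*} {f : List α → T} {f' : List α → T'} (hf : Meas f)
    (hf' : Meas f') : Meas (fun w => (f w, f' w)) := fun t =>
  ((hf t.1).inter (hf' t.2)).of_iff fun w => by
    change (f w, f' w) = t ↔ (f w = t.1 ∧ f' w = t.2)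
    exact Prod.ext_iff

theorem Meas.pi {κ : Type*} [Finite κ] {T : κ → Type*} {f : ∀ k, List α → T k}
    (hf : ∀ k, Meas (f k)) : Meas (fun w => fun k => f k w) := fun t =>
  (heightLE_iInter (fun k => ({w | f k w = t k} : Language α)) (fun k => hf k (t k))).of_iff
    fun w => by
      change (fun k => f k w) = t ↔ ∀ k, f k w = t k
      exact funext_iff

theorem meas_const {T : Type*} (c : T) : Meas (fun _ : List α => c) := fun t => by
  by_cases h : c = t
  · exact heightLE_top.of_iff fun w => iff_of_true h trivial
  · exact heightLE_zero.of_iff fun w => iff_of_false h (Language.notMem_zero w)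

theorem Meas.congr {T : Type*} {f g : List α → T} (hf : Meas f) (h : ∀ w, g w = f w) : Meas g := by
  have : g = f := funext h
  rwa [this]

theorem Meas.map₂ {T T' T'' : Type*} [Finite T] [Finite T'] {f : List α → T} {f' : List α → T'}
    (hf : Meas f) (hf' : Meas f') (g : T → T' → T'') : Meas (fun w => g (f w) (f' w)) :=
  (hf.prodMk hf').comp (fun x => g x.1 x.2)

theorem Meas.add {T : Type*} [Finite T] [Add T] {f f' : List α → T} (hf : Meas f) (hf' : Meas f') :
    Meas (fun w => f w + f' w) := hf.map₂ hf' (· + ·)

theorem Meas.sub {T : Type*} [Finite T] [Sub T] {f f' : List α → T} (hf : Meas f) (hf' : Meas f') :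
    Meas (fun w => f w - f' w) := hf.map₂ hf' (· - ·)

theorem Meas.sum {κ : Type*} {T : Type*} [Finite T] [AddCommMonoid T] (s : Finset κ)
    {f : κ → List α → T} (hf : ∀ k ∈ s, Meas (f k)) : Meas (fun w => ∑ k ∈ s, f k w) := by
  classical
  induction s using Finset.induction_on with
  | empty => simpa using meas_const (α := α) (0 : T)
  | insert a s ha ih =>
    have h1 := (hf a (Finset.mem_insert_self _ _)).add
      (ih (fun k hk => hf k (Finset.mem_insert_of_mem hk)))
    exact h1.congr fun w => Finset.sum_insert ha

/-- the indicator of a language of height at most one -/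
theorem meas_of_heightLE {L : Language α} (hL : HeightLE 1 L) : Meas (fun w => (w ∈ L : Prop)) := by
  intro t
  by_cases ht : t
  · exact hL.of_iff fun w => by
      change ((w ∈ L) = t) ↔ w ∈ L
      simp [ht]
  · exact hL.compl.of_iff fun w => by
      change ((w ∈ L) = t) ↔ w ∉ L
      simp [ht]

end Vale.Agent.Lib.P329
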