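import Vale.Agent.Lib.P329.CounterFree

/-!
# The reset automaton over a group all of whose nontrivial elements are generators

States are pairs (flag, phase).  The phase is the image of the word read so far in the group `H`.
Whenever the phase `c` is reached by a step which is not exceptional, the automaton
returns to its base state.
-/

namespace Vale.Agent.Lib.P329

/-- the five classes of letters -/
inductive Cls : Type
  | nt : Cls
  | a : Cls
  | b : Cls
  | o : Cls
  | z : Cls

/-- update of the armed bit -/
def arm : Bool → Cls → Bool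
  | t, Cls.nt => t
  | _, Cls.a => true
  | _, Cls.b => false
  | _, Cls.o => false
  | _, Cls.z => false

/-- is the step exceptional? -/
def exc : Bool → Cls → Bool
  | _, Cls.nt => false
  | _, Cls.a => false
  | t, Cls.b => t
  | _, Cls.o => false
  | _, Cls.z => true

variable {α H : Type} [Group H] (ψ : α → H) (cls : α → Cls) (c : H)

/-- compatibility of the classes with the phases -/
structure Good : Prop where
  nt : ∀ z, cls z = Cls.nt → ψ z = 1
  z : ∀ z, cls z = Cls.z → ψ z = 1
  b : ∀ z, cls z = Cls.b → ψ z ≠ 1

open Classical in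
/-- the transition function of the reset automaton -/
noncomputable def rstep (s : Option Bool × H) (z : α) : Option Bool × H :=
  if s.2 * ψ z = c then
    (if exc (s.1.getD false) (cls z) = true then (none, c) else (some false, c))
  else (some (arm (s.1.getD false) (cls z)), s.2 * ψ z)

/-- the base state -/
def rbase : Option Bool × H := (some false, c)

theorem rstep_snd (s : Option Bool × H) (z : α) : (rstep ψ cls c s z).2 = s.2 * ψ z := by
  unfold rstep
  split_ifs with h1 h2
  · exact h1.symm
  · exact h1.symm
  · rfl

theorem run_rstep_snd (s : Option Bool × H) (w : List α) :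
    (run (rstep ψ cls c) s w).2 = s.2 * ev ψ w := by
  induction w generalizing s with
  | nil => simp [run_nil, ev_nil]
  | cons z w ih => rw [run_cons, ih, rstep_snd, ev_cons, mul_assoc]

theorem rstep_eq_base_iff (s : Option Bool × H) (z : α) :
    rstep ψ cls c s z = rbase c ↔ s.2 * ψ z = c ∧ exc (s.1.getD false) (cls z) = false := by
  unfold rstep rbase
  split_ifs with h1 h2
  · simp [h1, h2]
  · simp [h1, h2]
  · constructor
    · intro h
      exact absurd (congrArg Prod.snd h) h1
    · intro h
      exact absurd h.1 h1

theorem getD_rstep_of_exc_class (s : Option Bool × H) (z : α)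
    (hz : cls z = Cls.b ∨ cls z = Cls.z) : (rstep ψ cls c s z).1.getD false = false := by
  unfold rstep
  split_ifs with h1 h2
  · rfl
  · rfl
  · rcases hz with hz | hz <;> simp [hz, arm]

theorem exc_class {t : Bool} {k : Cls} (h : exc t k = true) : k = Cls.b ∨ k = Cls.z := by
  cases k <;> simp_all [exc]

theorem avoid_end_ne {Ω : Type} (δ : Ω → α → Ω) (s₀ : Ω) {p q : Ω} {w : List α}
    (h : Avoid δ s₀ p q w) (hw : w ≠ []) : q ≠ s₀ := by
  induction w generalizing p with
  | nil => exact absurd rfl hw
  | cons a w ih =>
    cases w with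
    | nil =>
      have h2 : δ p a = q := h.2
      rw [← h2]; exact h.1
    | cons b w => exact ih h.2 (by simp)

theorem avoid_snoc {Ω : Type} (δ : Ω → α → Ω) (s₀ : Ω) {p q : Ω} {w : List α} {z : α}
    (h : Avoid δ s₀ p q (w ++ [z])) : δ (run δ p w) z ≠ s₀ := by
  rw [avoid_append] at h
  exact h.2.1

theorem exists_ne_one_of_ev_ne_one {u : List α} (h : ev ψ u ≠ 1) : ∃ z ∈ u, ψ z ≠ 1 := by
  by_contra hcon
  push Not at hcon
  apply h
  clear h
  induction u with
  | nil => rfl
  | cons a u ih =>
    rw [ev_cons, hcon a (by simp), one_mul]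
    exact ih (fun z hz => hcon z (by simp [hz]))

section CF

variable (hg : Good ψ cls) (hgen : ∀ g : H, g ≠ 1 → ∀ d : H, ∃ j : ℕ, g ^ j = d)

/-- normal form of a state after a neutral step -/
def nrm (y : Option Bool × H) : Option Bool × H := (some (y.1.getD false), y.2)

include hg in
theorem rstep_nt {y : Option Bool × H} {z : α} (hz : cls z = Cls.nt)
    (hy : rstep ψ cls c y z ≠ rbase c) : rstep ψ cls c y z = nrm y := by
  have h1 : ψ z = 1 := hg.nt z hz
  have h2 : ¬ (y.2 * ψ z = c) := by
    intro h
    apply hy
    rw [rstep_eq_base_iff]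
    exact ⟨h, by rw [hz]; rfl⟩
  unfold rstep
  rw [if_neg h2, hz, h1, mul_one]
  rfl

include hg in
theorem run_nt {y q : Option Bool × H} {u : List α} (hu : ∀ z ∈ u, cls z = Cls.nt)
    (hne : u ≠ []) (hA : Avoid (rstep ψ cls c) (rbase c) y q u) :
    run (rstep ψ cls c) y u = nrm y := by
  induction u generalizing y with
  | nil => exact absurd rfl hne
  | cons z u ih =>
    have h1 := rstep_nt ψ cls c hg (hu z (by simp)) hA.1
    rw [run_cons, h1]
    cases u with
    | nil => rfl
    | cons z' u' =>
      have h2 := hA.2
      rw [h1] at h2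
      rw [ih (fun z hz => hu z (by simp [hz])) (by simp) h2]
      rfl

theorem coupling {y y' q q' : Option Bool × H} {u : List α} (hyy : y.2 = y'.2)
    (hA : Avoid (rstep ψ cls c) (rbase c) y q u) (hA' : Avoid (rstep ψ cls c) (rbase c) y' q' u) :
    run (rstep ψ cls c) y u = run (rstep ψ cls c) y' u ∨ ∀ z ∈ u, cls z = Cls.nt := by
  induction u generalizing y y' with
  | nil => right; intro z hz; simp at hz
  | cons z u ih =>
    by_cases hz : cls z = Cls.nt
    · have hph : (rstep ψ cls c y z).2 = (rstep ψ cls c y' z).2 := by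
        rw [rstep_snd, rstep_snd, hyy]
      rcases ih hph hA.2 hA'.2 with h | h
      · left; rw [run_cons, run_cons, h]
      · right
        intro z' hz'
        rcases List.mem_cons.1 hz' with rfl | hz'
        · exact hz
        · exact h z' hz'
    · left
      have h1 := hA.1
      have h2 := hA'.1
      have : rstep ψ cls c y z = rstep ψ cls c y' z := by
        rw [Ne, rstep_eq_base_iff] at h1 h2
        unfold rstep
        rw [← hyy]
        by_cases hc : y.2 * ψ z = c
        · rw [← hyy] at h2
          have e1 : exc (y.1.getD false) (cls z) = true := by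
            by_contra hcon
            exact h1 ⟨hc, by simpa using hcon⟩
          have e2 : exc (y'.1.getD false) (cls z) = true := by
            by_contra hcon
            exact h2 ⟨hc, by simpa using hcon⟩
          rw [if_pos hc, if_pos hc, if_pos e1, if_pos e2]
        · rw [if_neg hc, if_neg hc]
          have : arm (y.1.getD false) (cls z) = arm (y'.1.getD false) (cls z) := by
            cases hk : cls z <;> simp_all [arm]
          rw [this]
      rw [run_cons, run_cons, this]

include hg hgen in
/-- the reset automaton is counter-free off its base state -/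
theorem counterFreeOff_rstep : CounterFreeOff (rstep ψ cls c) (rbase c) := by
  intro u x k hk hA
  -- all repetitions avoid the base state
  have hmul : ∀ j, Avoid (rstep ψ cls c) (rbase c) x x (rep (k * j) u) := by
    intro j
    induction j with
    | zero => exact rfl
    | succ j ih =>
      rw [Nat.mul_succ, rep_add, avoid_append, Avoid.run_eq _ _ ih]
      exact ⟨ih, hA⟩
  have hrep : ∀ j, Avoid (rstep ψ cls c) (rbase c) x (run (rstep ψ cls c) x (rep j u)) (rep j u) := by
    intro j
    have h := hmul j
    have hj : k * j = j + (k * j - j) := by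
      have : j ≤ k * j := Nat.le_mul_of_pos_left j hk
      omega
    rw [hj, rep_add, avoid_append] at h
    exact h.1
  by_cases hu : ev ψ u = 1
  · -- the phase does not move
    have h1 := hrep 1
    have h2 := hrep 2
    have e1 : rep 1 u = u := by rw [rep_succ, rep_zero, List.append_nil]
    have e2 : rep 2 u = u ++ u := by rw [rep_succ, e1]
    rw [e1] at h1
    rw [e2, avoid_append] at h2
    set x1 := run (rstep ψ cls c) x u with hx1
    have hph : x.2 = x1.2 := by rw [hx1, run_rstep_snd, hu, mul_one]
    have hx2 : run (rstep ψ cls c) x1 u = x1 := by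
      rcases coupling ψ cls c hph h1 h2.2 with h | h
      · exact h.symm
      · by_cases hne : u = []
        · rw [hne]; rfl
        · rw [run_nt ψ cls c hg h hne h2.2, hx1, run_nt ψ cls c hg h hne h1]
          rfl
    have hall : ∀ j, run (rstep ψ cls c) x1 (rep j u) = x1 := by
      intro j
      induction j with
      | zero => rfl
      | succ j ih => rw [rep_succ, run_append, hx2, ih]
    obtain ⟨k', rfl⟩ : ∃ k', k = k' + 1 := ⟨k - 1, by omega⟩
    have := Avoid.run_eq _ _ hA
    rw [rep_succ, run_append, ← hx1, hall] at this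
    exact this
  · -- the phase moves: contradiction
    exfalso
    obtain ⟨z1, hz1, hz1ne⟩ := exists_ne_one_of_ev_ne_one ψ hu
    obtain ⟨u1, u2, hu12⟩ := List.append_of_mem hz1
    have hne : u ++ u1 ≠ [] := by
      rw [hu12]; simp
    obtain ⟨v, z0, hv⟩ : ∃ v z0, u ++ u1 = v ++ [z0] := by
      rcases List.eq_nil_or_concat (u ++ u1) with h | ⟨v, z0, h⟩
      · exact absurd h hne
      · exact ⟨v, z0, by rw [h, List.concat_eq_append]⟩
    have hword : ∀ j, rep (j + 2) u = (rep j u ++ v ++ [z0] ++ [z1]) ++ u2 := by
      intro j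
      have e2 : rep 2 u = u ++ u := by rw [rep_succ, rep_succ, rep_zero, List.append_nil]
      rw [rep_add, e2]
      calc rep j u ++ (u ++ u) = rep j u ++ (u ++ (u1 ++ z1 :: u2)) := by rw [← hu12]
        _ = rep j u ++ ((u ++ u1) ++ ([z1] ++ u2)) := by simp
        _ = rep j u ++ ((v ++ [z0]) ++ ([z1] ++ u2)) := by rw [hv]
        _ = (rep j u ++ v ++ [z0] ++ [z1]) ++ u2 := by simp
    have hav : ∀ j, ∃ q, Avoid (rstep ψ cls c) (rbase c) x q (rep j u ++ v ++ [z0] ++ [z1]) := by
      intro j
      have h := hrep (j + 2)
      rw [hword, avoid_append] at h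
      exact ⟨_, h.1⟩
    have hstep1 : ∀ j, rstep ψ cls c (run (rstep ψ cls c) x (rep j u ++ v ++ [z0])) z1 ≠ rbase c := by
      intro j
      obtain ⟨q, hq⟩ := hav j
      exact avoid_snoc _ _ hq
    have hstep0 : ∀ j, rstep ψ cls c (run (rstep ψ cls c) x (rep j u ++ v)) z0 ≠ rbase c := by
      intro j
      obtain ⟨q, hq⟩ := hav j
      rw [avoid_append] at hq
      exact avoid_snoc _ _ hq.1
    -- the class of `z0`
    have hcls0 : cls z0 = Cls.b ∨ cls z0 = Cls.z := by
      obtain ⟨j, hj⟩ := hgen _ hu (x.2⁻¹ * c * (ev ψ v * ψ z0)⁻¹)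
      have h := hstep0 j
      rw [Ne, rstep_eq_base_iff, run_rstep_snd, ev_append, ev_rep, hj] at h
      have hc : x.2 * (x.2⁻¹ * c * (ev ψ v * ψ z0)⁻¹ * ev ψ v) * ψ z0 = c := by group
      have : exc ((run (rstep ψ cls c) x (rep j u ++ v)).1.getD false) (cls z0) = true := by
        by_contra hcon
        exact h ⟨hc, by simpa using hcon⟩
      exact exc_class this
    obtain ⟨j, hj⟩ := hgen _ hu (x.2⁻¹ * c * (ev ψ v * ψ z0 * ψ z1)⁻¹)
    have h := hstep1 j
    rw [Ne, rstep_eq_base_iff, run_rstep_snd, ev_append, ev_append, ev_rep, hj, ev_singleton] at h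
    have hc : x.2 * (x.2⁻¹ * c * (ev ψ v * ψ z0 * ψ z1)⁻¹ * ev ψ v * ψ z0) * ψ z1 = c := by group
    have hflag : (run (rstep ψ cls c) x (rep j u ++ v ++ [z0])).1.getD false = false := by
      rw [run_append]
      exact getD_rstep_of_exc_class ψ cls c _ z0 hcls0
    rw [hflag] at h
    have hex : exc false (cls z1) = true := by
      by_contra hcon
      exact h ⟨hc, by simpa using hcon⟩
    have : cls z1 = Cls.z := by
      cases hk : cls z1 <;> simp_all [exc]
    exact hz1ne (hg.z z1 this)

end CF

end Vale.Agent.Lib.P329
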