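import Vale.Agent.Lib.P329.Closure

/-!
# Schutzenberger's theorem (the direction needed here)

Every language recognized by a finite aperiodic monoid is star-free.
-/

namespace Vale.Agent.Lib.P329

section Monoid

variable {M : Type} [Monoid M]

theorem sandwich_pow {m p q : M} (h : m = p * m * q) (k : ℕ) : m = p ^ k * m * q ^ k := by
  induction k with
  | zero => simp
  | succ k ih =>
    calc m = p ^ k * m * q ^ k := ih
      _ = p ^ k * (p * m * q) * q ^ k := by rw [← h]
      _ = p ^ (k + 1) * m * q ^ (k + 1) := by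
        rw [pow_succ, pow_succ']
        simp only [mul_assoc]

variable (hap : ∀ x : M, ∃ n : ℕ, x ^ (n + 1) = x ^ n)

include hap in
theorem simp_left {m p q : M} (h : m = p * m * q) : m = p * m := by
  obtain ⟨n, hn⟩ := hap p
  have h1 := sandwich_pow h n
  calc m = p ^ n * m * q ^ n := h1
    _ = p ^ (n + 1) * m * q ^ n := by rw [hn]
    _ = p * (p ^ n * m * q ^ n) := by rw [pow_succ']; simp only [mul_assoc]
    _ = p * m := by rw [← h1]

include hap in
theorem simp_right {m p q : M} (h : m = p * m * q) : m = m * q := by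
  obtain ⟨n, hn⟩ := hap q
  have h1 := sandwich_pow h n
  calc m = p ^ n * m * q ^ n := h1
    _ = p ^ n * m * q ^ (n + 1) := by rw [hn]
    _ = (p ^ n * m * q ^ n) * q := by rw [pow_succ]; simp only [mul_assoc]
    _ = m * q := by rw [← h1]

include hap in
theorem eq_one_of_mul_eq_one {x y : M} (h : x * y = 1) : x = 1 ∧ y = 1 := by
  have h1 : (1 : M) = x * 1 * y := by rw [mul_one, h]
  constructor
  · have := simp_left hap h1
    rw [mul_one] at this
    exact this.symm
  · have := simp_right hap h1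
    rw [one_mul] at this
    exact this.symm

end Monoid

section Main

variable {α : Type} {M : Type} [Monoid M] (φ : α → M)

/-- the image of a word in the monoid -/
def ev (w : List α) : M := (w.map φ).prod

theorem ev_nil : ev φ [] = 1 := rfl

theorem ev_cons (a : α) (w : List α) : ev φ (a :: w) = φ a * ev φ w := by
  simp [ev]

theorem ev_append (u v : List α) : ev φ (u ++ v) = ev φ u * ev φ v := by
  simp [ev]

theorem ev_singleton (a : α) : ev φ [a] = φ a := by simp [ev]

/-- the language of all words with image `m` -/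
def LE (m : M) : Language α := {w | ev φ w = m}

/-- first moment at which a left-to-right property becomes true -/
theorem exists_first (P : M → Prop) (u : List α) :
    ∀ x : M, ¬ P x → P (x * ev φ u) →
      ∃ r a t, u = r ++ a :: t ∧ ¬ P (x * ev φ r) ∧ P (x * ev φ r * φ a) := by
  induction u with
  | nil => intro x h1 h2; rw [ev_nil, mul_one] at h2; exact absurd h2 h1
  | cons b u ih =>
    intro x h1 h2
    by_cases hb : P (x * φ b)
    · exact ⟨[], b, u, rfl, by rwa [ev_nil, mul_one], by rwa [ev_nil, mul_one]⟩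
    · rw [ev_cons, ← mul_assoc] at h2
      obtain ⟨r, a, t, rfl, h3, h4⟩ := ih (x * φ b) hb h2
      refine ⟨b :: r, a, t, rfl, ?_, ?_⟩
      · rwa [ev_cons, ← mul_assoc]
      · rwa [ev_cons, ← mul_assoc]

/-- last moment (from the right) at which a right-to-left property becomes true -/
theorem exists_last (P : M → Prop) (u : List α) (h1 : ¬ P 1) (h2 : P (ev φ u)) :
    ∃ t a r, u = t ++ a :: r ∧ ¬ P (ev φ r) ∧ P (φ a * ev φ r) := by
  induction u with
  | nil => exact absurd h2 h1
  | cons b u ih =>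
    by_cases hb : P (ev φ u)
    · obtain ⟨t, a, r, rfl, h3, h4⟩ := ih hb
      exact ⟨b :: t, a, r, rfl, h3, h4⟩
    · exact ⟨[], b, u, rfl, hb, by rwa [ev_cons] at h2⟩

variable (m : M)

/-- index set of the left factor -/
def CondE (na : M × α) : Prop :=
  (∃ s, na.1 * φ na.2 = m * s) ∧ (∃ s, m = na.1 * φ na.2 * s) ∧ ¬ ∃ s, na.1 = m * s

/-- index set of the right factor -/
def CondF (an : α × M) : Prop :=
  (∃ s, φ an.1 * an.2 = s * m) ∧ (∃ s, m = s * (φ an.1 * an.2)) ∧ ¬ ∃ s, an.2 = s * m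

/-- forbidden letters -/
def CondC (a : α) : Prop := ¬ ∃ u v, m = u * φ a * v

/-- forbidden factors -/
def CondG (x : α × M × α) : Prop :=
  (∃ u v, m = u * (φ x.1 * x.2.1) * v) ∧ (∃ u v, m = u * (x.2.1 * φ x.2.2) * v) ∧
    ¬ ∃ u v, m = u * (φ x.1 * x.2.1 * φ x.2.2) * v

def LU : Language α := {w | ∃ na : M × α, CondE φ m na ∧ w ∈ LE φ na.1 * ({[na.2]} : Language α)}

def LV : Language α := {w | ∃ an : α × M, CondF φ m an ∧ w ∈ ({[an.1]} : Language α) * LE φ an.2}

def LC : Language α := {w | ∃ a : α, CondC φ m a ∧ w ∈ ({[a]} : Language α)}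

def LW : Language α := {w | ∃ x : α × M × α, CondG φ m x ∧
  w ∈ ({[x.1]} : Language α) * LE φ x.2.1 * ({[x.2.2]} : Language α)}

/-- the star-free description of the words with image `m` -/
def LS : Language α :=
  {w | (w ∈ LU φ m * (⊤ : Language α) ∧ w ∈ (⊤ : Language α) * LV φ m) ∧
    w ∈ ((⊤ : Language α) * LC φ m * (⊤ : Language α) +
      (⊤ : Language α) * LW φ m * (⊤ : Language α))ᶜ}

theorem mem_single {a : α} {w : List α} : w ∈ ({[a]} : Language α) ↔ w = [a] := Iff.rfl

variable (hap : ∀ x : M, ∃ n : ℕ, x ^ (n + 1) = x ^ n)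

include hap in
theorem LE_subset_LS (hm : m ≠ 1) {u : List α} (hu : ev φ u = m) : u ∈ LS φ m := by
  have hone : ¬ ∃ s, (1 : M) = m * s := by
    rintro ⟨s, hs⟩
    exact hm (eq_one_of_mul_eq_one hap hs.symm).1
  have hone' : ¬ ∃ s, (1 : M) = s * m := by
    rintro ⟨s, hs⟩
    exact hm (eq_one_of_mul_eq_one hap hs.symm).2
  refine ⟨⟨?_, ?_⟩, ?_⟩
  · obtain ⟨r, a, t, rfl, h3, h4⟩ := exists_first φ (fun x => ∃ s, x = m * s) u 1 hone
      ⟨1, by rw [one_mul, mul_one, hu]⟩
    rw [one_mul] at h3 h4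
    refine Language.mem_mul.2 ⟨r ++ [a], ⟨(ev φ r, a), ⟨h4, ⟨ev φ t, ?_⟩, h3⟩,
      Language.mem_mul.2 ⟨r, rfl, [a], rfl, rfl⟩⟩, t, trivial, by simp⟩
    rw [← hu, ev_append, ev_cons, mul_assoc]
  · obtain ⟨t, a, r, rfl, h3, h4⟩ := exists_last φ (fun x => ∃ s, x = s * m) u hone'
      ⟨1, by rw [one_mul, hu]⟩
    refine Language.mem_mul.2 ⟨t, trivial, a :: r, ⟨(a, ev φ r), ⟨h4, ⟨ev φ t, ?_⟩, h3⟩,
      Language.mem_mul.2 ⟨[a], rfl, r, rfl, rfl⟩⟩, rfl⟩
    rw [← hu, ev_append, ev_cons]
  · rintro (h | h)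
    · obtain ⟨xy, hxy, z, -, rfl⟩ := Language.mem_mul.1 h
      obtain ⟨x, -, y, ⟨a, ha, hy⟩, rfl⟩ := Language.mem_mul.1 hxy
      rw [mem_single] at hy
      subst hy
      exact ha ⟨ev φ x, ev φ z, by rw [← hu, ev_append, ev_append, ev_singleton]⟩
    · obtain ⟨xy, hxy, z, -, rfl⟩ := Language.mem_mul.1 h
      obtain ⟨x, -, y, ⟨⟨a, n, b⟩, hG, hy⟩, rfl⟩ := Language.mem_mul.1 hxy
      obtain ⟨ag, hag, b', hb', rfl⟩ := Language.mem_mul.1 hy
      obtain ⟨a', ha', g, hg, rfl⟩ := Language.mem_mul.1 hag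
      rw [mem_single] at ha' hb'
      subst ha' hb'
      have hg' : ev φ g = n := hg
      refine hG.2.2 ⟨ev φ x, ev φ z, ?_⟩
      rw [← hu]
      simp only [ev_append, ev_singleton, hg']

include hap in
theorem LS_subset_LE {u : List α} (hu : u ∈ LS φ m) : ev φ u = m := by
  obtain ⟨⟨hU, hV⟩, hN⟩ := hu
  -- the image lies in `m M`
  obtain ⟨x, hx⟩ : ∃ x, ev φ u = m * x := by
    obtain ⟨ra, ⟨⟨n, a⟩, hE, hra⟩, t, -, rfl⟩ := Language.mem_mul.1 hU
    obtain ⟨r, hr, a', ha', rfl⟩ := Language.mem_mul.1 hra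
    rw [mem_single] at ha'
    subst ha'
    have hr' : ev φ r = n := hr
    obtain ⟨s, hs⟩ := hE.1
    refine ⟨s * ev φ t, ?_⟩
    rw [ev_append, ev_append, ev_singleton, hr']
    change n * φ a * ev φ t = _
    have hs' : n * φ a = m * s := hs
    rw [hs', mul_assoc]
  obtain ⟨y, hy⟩ : ∃ y, ev φ u = y * m := by
    obtain ⟨t, -, ar, ⟨⟨a, n⟩, hF, har⟩, rfl⟩ := Language.mem_mul.1 hV
    obtain ⟨a', ha', r, hr, rfl⟩ := Language.mem_mul.1 har
    rw [mem_single] at ha'
    subst ha'
    have hr' : ev φ r = n := hr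
    obtain ⟨s, hs⟩ := hF.1
    refine ⟨ev φ t * s, ?_⟩
    rw [ev_append, ev_append, ev_singleton, hr']
    have hs' : φ a * n = s * m := hs
    rw [hs', mul_assoc]
  -- every factor of `u` generates an ideal containing `m`
  have key : ∀ k : ℕ, ∀ f : List α, f.length = k → ∀ p q, u = p ++ f ++ q →
      ∃ c d, m = c * ev φ f * d := by
    intro k
    induction k using Nat.strong_induction_on with
    | _ k ih =>
      intro f hf p q hpq
      by_contra hcon
      rcases List.eq_nil_or_concat f with rfl | ⟨f', b, rfl⟩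
      · exact hcon ⟨1, m, by simp [ev_nil]⟩
      · simp only [List.concat_eq_append] at hf hpq hcon
        cases f' with
        | nil =>
          apply hN
          left
          refine Language.mem_mul.2 ⟨p ++ [b], Language.mem_mul.2 ⟨p, trivial, [b], ⟨b, ?_, rfl⟩,
            rfl⟩, q, trivial, by rw [hpq]; simp⟩
          intro h
          apply hcon
          simpa [ev_singleton] using h
        | cons a g =>
          apply hN
          right
          have hlen : (a :: g).length < k := by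
            rw [← hf]; simp
          have hlen2 : (g ++ [b]).length < k := by
            rw [← hf]; simp
          obtain ⟨c1, d1, h1⟩ := ih _ hlen (a :: g) rfl p ([b] ++ q) (by rw [hpq]; simp)
          obtain ⟨c2, d2, h2⟩ := ih _ hlen2 (g ++ [b]) rfl (p ++ [a]) q (by rw [hpq]; simp)
          refine Language.mem_mul.2 ⟨p ++ (a :: g ++ [b]), Language.mem_mul.2 ⟨p, trivial,
            a :: g ++ [b], ⟨(a, ev φ g, b), ⟨⟨c1, d1, ?_⟩, ⟨c2, d2, ?_⟩, ?_⟩,
              Language.mem_mul.2 ⟨[a] ++ g, Language.mem_mul.2 ⟨[a], rfl, g, rfl, rfl⟩, [b], rfl,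
                rfl⟩⟩, rfl⟩, q, trivial, by rw [hpq]⟩
          · rw [h1, ev_cons]
          · rw [h2, ev_append, ev_singleton]
          · intro h
            apply hcon
            obtain ⟨c, d, h⟩ := h
            refine ⟨c, d, ?_⟩
            rw [h]
            simp only [List.cons_append, ev_cons, ev_append, ev_nil, one_mul, mul_assoc]
  obtain ⟨c, d, hcd⟩ := key _ u rfl [] [] (by simp)
  -- conclude by triviality of the H-classes
  have h1 : m = c * m * (x * d) := by
    calc m = c * ev φ u * d := hcd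
      _ = c * (m * x) * d := by rw [hx]
      _ = c * m * (x * d) := by simp only [mul_assoc]
  have h2 : m = m * (x * d) := simp_right hap h1
  have h3 : m = ev φ u * d := by rw [hx, mul_assoc]; exact h2
  have h4 : m = y * m * d := by rw [← hy]; exact h3
  have h5 : m = y * m := simp_left hap h4
  rw [hy]; exact h5.symm

include hap in
theorem LE_eq_LS (hm : m ≠ 1) (w : List α) : w ∈ LE φ m ↔ w ∈ LS φ m :=
  ⟨fun h => LE_subset_LS φ m hap hm h, fun h => LS_subset_LE φ m hap h⟩

include hap in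
theorem LE_one (w : List α) : w ∈ LE φ (1 : M) ↔ w ∈ Letters (fun a => φ a = 1) := by
  change ev φ w = 1 ↔ ∀ a ∈ w, φ a = 1
  induction w with
  | nil => simp [ev_nil]
  | cons b w ih =>
    rw [ev_cons]
    constructor
    · intro h
      obtain ⟨h1, h2⟩ := eq_one_of_mul_eq_one hap h
      intro a ha
      rcases List.mem_cons.1 ha with rfl | ha
      · exact h1
      · exact ih.1 h2 a ha
    · intro h
      rw [h b (by simp), one_mul]
      exact ih.2 (fun a ha => h a (by simp [ha]))

/-- strict order of two-sided ideals -/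
def IdealLT (n m : M) : Prop := (∃ u v, m = u * n * v) ∧ ¬ ∃ u v, n = u * m * v

theorem idealLT_wf [Finite M] : WellFounded (IdealLT (M := M)) := by
  have : IsTrans M IdealLT := ⟨by
    rintro a b c ⟨⟨u1, v1, h1⟩, h2⟩ ⟨⟨u3, v3, h3⟩, h4⟩
    refine ⟨⟨u3 * u1, v1 * v3, by rw [h3, h1]; simp only [mul_assoc]⟩, ?_⟩
    rintro ⟨u, v, h⟩
    exact h2 ⟨u * u3, v3 * v, by rw [h, h3]; simp only [mul_assoc]⟩⟩
  have : Std.Irrefl (IdealLT (M := M)) := ⟨by
    rintro a ⟨-, h⟩
    exact h ⟨1, 1, by simp⟩⟩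
  exact Finite.wellFounded_of_trans_of_irrefl _

include hap in
theorem condE_lt {na : M × α} (h : CondE φ m na) : IdealLT na.1 m := by
  obtain ⟨-, ⟨s, hs⟩, h3⟩ := h
  refine ⟨⟨1, φ na.2 * s, by rw [one_mul, ← mul_assoc]; exact hs⟩, ?_⟩
  rintro ⟨u, v, huv⟩
  apply h3
  have h1 : na.1 = u * na.1 * (φ na.2 * s * v) := by
    calc na.1 = u * m * v := huv
      _ = u * (na.1 * φ na.2 * s) * v := by rw [← hs]
      _ = u * na.1 * (φ na.2 * s * v) := by simp only [mul_assoc]
  have h2 := simp_right hap h1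
  refine ⟨v, ?_⟩
  rw [hs]
  calc na.1 = na.1 * (φ na.2 * s * v) := h2
    _ = na.1 * φ na.2 * s * v := by simp only [mul_assoc]

include hap in
theorem condF_lt {an : α × M} (h : CondF φ m an) : IdealLT an.2 m := by
  obtain ⟨-, ⟨s, hs⟩, h3⟩ := h
  refine ⟨⟨s * φ an.1, 1, by rw [mul_one, mul_assoc]; exact hs⟩, ?_⟩
  rintro ⟨u, v, huv⟩
  apply h3
  have h1 : an.2 = (u * s * φ an.1) * an.2 * v := by
    calc an.2 = u * m * v := huv
      _ = u * (s * (φ an.1 * an.2)) * v := by rw [← hs]
      _ = (u * s * φ an.1) * an.2 * v := by simp only [mul_assoc]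
  have h2 := simp_left hap h1
  refine ⟨u, ?_⟩
  rw [hs]
  calc an.2 = (u * s * φ an.1) * an.2 := h2
    _ = u * (s * (φ an.1 * an.2)) := by simp only [mul_assoc]

include hap in
theorem condG_lt {x : α × M × α} (h : CondG φ m x) : IdealLT x.2.1 m := by
  obtain ⟨a, n, b⟩ := x
  obtain ⟨⟨u1, v1, h1⟩, ⟨u2, v2, h2⟩, h3⟩ := h
  simp only at h1 h2 h3 ⊢
  refine ⟨⟨u1 * φ a, v1, by rw [h1]; simp only [mul_assoc]⟩, ?_⟩
  rintro ⟨c, d, hcd⟩
  apply h3
  have e1 : n = (c * u1 * φ a) * n * (v1 * d) := by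
    calc n = c * m * d := hcd
      _ = c * (u1 * (φ a * n) * v1) * d := by rw [← h1]
      _ = (c * u1 * φ a) * n * (v1 * d) := by simp only [mul_assoc]
  have e2 : n = (c * u2) * n * (φ b * v2 * d) := by
    calc n = c * m * d := hcd
      _ = c * (u2 * (n * φ b) * v2) * d := by rw [← h2]
      _ = (c * u2) * n * (φ b * v2 * d) := by simp only [mul_assoc]
  have f1 := simp_left hap e1
  have f2 := simp_right hap e2
  have f3 : n = c * u1 * (φ a * n * φ b) * (v2 * d) := by
    calc n = (c * u1 * φ a) * n := f1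
      _ = (c * u1 * φ a) * (n * (φ b * v2 * d)) := by rw [← f2]
      _ = c * u1 * (φ a * n * φ b) * (v2 * d) := by simp only [mul_assoc]
  refine ⟨u1 * φ a * c * u1, v2 * d * v1, ?_⟩
  calc m = u1 * (φ a * n) * v1 := h1
    _ = u1 * (φ a * (c * u1 * (φ a * n * φ b) * (v2 * d))) * v1 := by rw [← f3]
    _ = u1 * φ a * c * u1 * (φ a * n * φ b) * (v2 * d * v1) := by simp only [mul_assoc]

include hap in
/-- **Schutzenberger's theorem**: languages recognized by finite aperiodic monoids are
star-free. -/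
theorem starfree_LE [Finite α] [Finite M] (m : M) : HeightLE 0 (LE φ m) := by
  induction m using (idealLT_wf (M := M)).induction with
  | _ m ih =>
    by_cases hm : m = 1
    · subst hm
      exact (heightLE_letters _).of_iff (LE_one φ hap)
    · have hU : HeightLE 0 (LU φ m) :=
        heightLE_iUnion (CondE φ m) (fun na => LE φ na.1 * ({[na.2]} : Language α))
          (fun na h => (ih _ (condE_lt φ m hap h)).mul (heightLE_char _))
      have hV : HeightLE 0 (LV φ m) :=
        heightLE_iUnion (CondF φ m) (fun an => ({[an.1]} : Language α) * LE φ an.2)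
          (fun an h => (heightLE_char _).mul (ih _ (condF_lt φ m hap h)))
      have hC : HeightLE 0 (LC φ m) :=
        heightLE_iUnion (CondC φ m) (fun a => ({[a]} : Language α)) (fun a _ => heightLE_char _)
      have hW : HeightLE 0 (LW φ m) :=
        heightLE_iUnion (CondG φ m)
          (fun x => ({[x.1]} : Language α) * LE φ x.2.1 * ({[x.2.2]} : Language α))
          (fun x h => ((heightLE_char _).mul (ih _ (condG_lt φ m hap h))).mul (heightLE_char _))
      have hS : HeightLE 0 (LS φ m) :=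
        ((hU.mul heightLE_top).inter (heightLE_top.mul hV)).inter
          (((heightLE_top.mul hC).mul heightLE_top).add
            ((heightLE_top.mul hW).mul heightLE_top)).compl
      exact hS.of_iff (LE_eq_LS φ m hap hm)

end Main

end Vale.Agent.Lib.P329
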