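import Vale.Agent.Lib.P329.Main

/-!
# Symmetric groups generated by star transpositions
-/

namespace Vale.Agent.Lib.P329

/-- the star transposition `(0 i+1)` -/
def starSwap (n : ℕ) (i : Fin n) : Equiv.Perm (Fin (n + 1)) := Equiv.swap 0 i.succ

theorem run_starSwap (n : ℕ) (w : List (Fin n)) (x : Fin (n + 1)) :
    run (fun y i => starSwap n i y) x w = ((w.map (starSwap n)).prod)⁻¹ x := by
  induction w generalizing x with
  | nil => simp [run]
  | cons i w ih =>
    rw [run_cons, ih, List.map_cons, List.prod_cons, mul_inv_rev, Equiv.Perm.mul_apply]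
    congr 1

theorem heightLE_starSwap (n : ℕ) (S : Set (Equiv.Perm (Fin (n + 1)))) :
    HeightLE 1 ({w | (w.map (starSwap n)).prod ∈ S} : Language (Fin n)) := by
  have h := heightLE_transition (fun (y : Fin (n + 1)) (i : Fin n) => starSwap n i y) 0
    (fun _ => 0) (by
      intro x i hx h0 hne
      exfalso
      apply hne
      by_cases hxi : x = i.succ
      · subst hxi
        exact absurd (by simp [starSwap]) h0
      · simp only [starSwap]
        exact Equiv.swap_apply_of_ne_of_ne hx hxi)
    {m | ∃ π ∈ S, m = fun x => π⁻¹ x}
  refine h.of_iff fun w => ?_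
  constructor
  · intro hw
    exact ⟨_, hw, funext fun x => run_starSwap n w x⟩
  · rintro ⟨π, hπ, hw⟩
    have : ((w.map (starSwap n)).prod)⁻¹ = π⁻¹ := by
      ext x
      have := congrFun hw x
      simp only [run_starSwap] at this
      rw [this]
    have h2 : (w.map (starSwap n)).prod = π := inv_injective this
    change (w.map (starSwap n)).prod ∈ S
    rw [h2]; exact hπ

end Vale.Agent.Lib.P329
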