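import Vale.Agent.Lib.P329.Automaton
import Vale.Agent.Lib.P329.Schutz
import Vale.Agent.Lib.P329.Meas

/-!
# Counting the visits of one state

If a deterministic automaton becomes counter-free after deleting one state `s₀`, then the end state
of a run together with the number of visits of `s₀` modulo `n` is determined by languages of
generalized star height at most one.
-/

namespace Vale.Agent.Lib.P329

variable {α Ω : Type} (δ : Ω → α → Ω) (s₀ : Ω)

open Classical in
/-- the number of steps `(state, letter)` of the run from `p` along `w` which satisfy `P` -/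
noncomputable def cnt (P : Ω → α → Prop) : Ω → List α → ℕ
  | _, [] => 0
  | p, a :: w => (if P p a then 1 else 0) + cnt P (δ p a) w

theorem cnt_nil (P : Ω → α → Prop) (p : Ω) : cnt δ P p [] = 0 := rfl

open Classical in
theorem cnt_cons (P : Ω → α → Prop) (p : Ω) (a : α) (w : List α) :
    cnt δ P p (a :: w) = (if P p a then 1 else 0) + cnt δ P (δ p a) w := rfl

theorem cnt_append (P : Ω → α → Prop) (p : Ω) (u v : List α) :
    cnt δ P p (u ++ v) = cnt δ P p u + cnt δ P (run δ p u) v := by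
  induction u generalizing p with
  | nil => simp [cnt_nil, run_nil]
  | cons a u ih => rw [List.cons_append, cnt_cons, cnt_cons, ih, run_cons, add_assoc]

/-- the number of arrivals at `s₀` -/
noncomputable def visits (p : Ω) (w : List α) : ℕ := cnt δ (fun x a => δ x a = s₀) p w

theorem visits_append (p : Ω) (u v : List α) :
    visits δ s₀ p (u ++ v) = visits δ s₀ p u + visits δ s₀ (run δ p u) v := cnt_append _ _ _ _ _

theorem Avoid.visits_eq {p q : Ω} {w : List α} (h : Avoid δ s₀ p q w) : visits δ s₀ p w = 0 := by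
  induction w generalizing p with
  | nil => rfl
  | cons a w ih =>
    have := ih h.2
    unfold visits at this ⊢
    rw [cnt_cons, if_neg h.1, this]

theorem Hit.visits_eq {p : Ω} {w : List α} (h : Hit δ s₀ p w) : visits δ s₀ p w = 1 := by
  induction w generalizing p with
  | nil => exact h.elim
  | cons a w ih =>
    rcases h with ⟨h1, rfl⟩ | ⟨h1, h2⟩
    · unfold visits
      rw [cnt_cons, if_pos h1, cnt_nil]
    · have := ih h2
      unfold visits at this ⊢
      rw [cnt_cons, if_neg h1, this]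

theorem pow_run_visits (m : ℕ) {u : List α} (hu : u ∈ (LH δ s₀ s₀) ^ m) :
    run δ s₀ u = s₀ ∧ visits δ s₀ s₀ u = m := by
  induction m generalizing u with
  | zero =>
    rw [pow_zero] at hu
    have : u = [] := hu
    subst this
    exact ⟨rfl, rfl⟩
  | succ m ih =>
    rw [pow_succ'] at hu
    obtain ⟨k, hk, v, hv, rfl⟩ := Language.mem_mul.1 hu
    obtain ⟨h1, h2⟩ := ih hv
    rw [run_append, visits_append, Hit.run_eq δ s₀ hk, Hit.visits_eq δ s₀ hk, h1, h2]
    exact ⟨rfl, by omega⟩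

theorem mem_kstar_iff_pow {L : Language α} {u : List α} : u ∈ KStar.kstar L ↔ ∃ m, u ∈ L ^ m := by
  rw [Language.kstar_eq_iSup_pow]
  exact Language.mem_iSup

/-- the language describing runs from `p` to `q` with `1 + j` visits modulo `n` -/
def LVis (n : ℕ) (p q : Ω) (j : ℕ) : Language α :=
  LH δ s₀ p * KStar.kstar ((LH δ s₀ s₀) ^ n) * (LH δ s₀ s₀) ^ j * LA δ s₀ s₀ q

theorem mem_LVis {n : ℕ} {p q : Ω} {j : ℕ} {w : List α} (h : w ∈ LVis δ s₀ n p q j) :
    run δ p w = q ∧ ∃ a, visits δ s₀ p w = 1 + n * a + j := by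
  obtain ⟨x, hx, t, ht, rfl⟩ := Language.mem_mul.1 h
  obtain ⟨y, hy, v, hv, rfl⟩ := Language.mem_mul.1 hx
  obtain ⟨f, hf, u, hu, rfl⟩ := Language.mem_mul.1 hy
  obtain ⟨a, ha⟩ := mem_kstar_iff_pow.1 hu
  rw [← pow_mul] at ha
  obtain ⟨h1, h2⟩ := pow_run_visits δ s₀ _ ha
  obtain ⟨h3, h4⟩ := pow_run_visits δ s₀ _ hv
  have h5 := Hit.run_eq δ s₀ hf
  have h6 := Hit.visits_eq δ s₀ hf
  have h7 := Avoid.run_eq δ s₀ ht
  have h8 := Avoid.visits_eq δ s₀ ht
  refine ⟨?_, a, ?_⟩
  · rw [run_append, run_append, run_append, h5, h1, h3, h7]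
  · simp only [visits_append, run_append, h5, h1, h3, h6, h2, h4, h8, add_zero]

theorem run_cases (p : Ω) (w : List α) :
    (w ∈ LA δ s₀ p (run δ p w)) ∨
      ∃ m, w ∈ LH δ s₀ p * (LH δ s₀ s₀) ^ m * LA δ s₀ s₀ (run δ p w) := by
  rcases (run_eq_iff δ s₀ p (run δ p w) w).1 rfl with h | h
  · exact Or.inl h
  · right
    obtain ⟨x, hx, t, ht, rfl⟩ := Language.mem_mul.1 h
    obtain ⟨f, hf, u, hu, rfl⟩ := Language.mem_mul.1 hx
    obtain ⟨m, hm⟩ := mem_kstar_iff_pow.1 hu
    exact ⟨m, Language.mem_mul.2 ⟨f ++ u, Language.mem_mul.2 ⟨f, hf, u, hm, rfl⟩, t, ht, rfl⟩⟩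

theorem visit_iff (n : ℕ) [NeZero n] (p q : Ω) (r : ZMod n) (w : List α) :
    (run δ p w = q ∧ (visits δ s₀ p w : ZMod n) = r) ↔
      (w ∈ LA δ s₀ p q ∧ (0 : ZMod n) = r) ∨
        ∃ j : Fin n, ((1 + (j : ℕ) : ℕ) : ZMod n) = r ∧ w ∈ LVis δ s₀ n p q j := by
  constructor
  · rintro ⟨rfl, hr⟩
    rcases run_cases δ s₀ p w with h | ⟨m, h⟩
    · left
      refine ⟨h, ?_⟩
      rw [← hr, Avoid.visits_eq δ s₀ h, Nat.cast_zero]
    · right
      have hn : 0 < n := Nat.pos_of_ne_zero (NeZero.ne n)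
      obtain ⟨x, hx, t, ht, hw⟩ := Language.mem_mul.1 h
      obtain ⟨f, hf, u, hu, rfl⟩ := Language.mem_mul.1 hx
      have hm : m = n * (m / n) + m % n := (Nat.div_add_mod m n).symm
      rw [hm, pow_add, pow_mul] at hu
      obtain ⟨u1, hu1, u2, hu2, rfl⟩ := Language.mem_mul.1 hu
      have hmem : w ∈ LVis δ s₀ n p (run δ p w) (m % n) := by
        rw [← hw]
        rw [← hw] at ht
        exact Language.mem_mul.2 ⟨f ++ u1 ++ u2, Language.mem_mul.2 ⟨f ++ u1,
          Language.mem_mul.2 ⟨f, hf, u1, mem_kstar_iff_pow.2 ⟨_, hu1⟩, rfl⟩, u2, hu2, rfl⟩, t, ht,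
          by simp⟩
      refine ⟨⟨m % n, Nat.mod_lt _ hn⟩, ?_, hmem⟩
      obtain ⟨-, a, ha⟩ := mem_LVis δ s₀ hmem
      rw [← hr, ha]
      push_cast
      simp
  · rintro (⟨h, hr⟩ | ⟨j, hj, h⟩)
    · exact ⟨Avoid.run_eq δ s₀ h, by rw [Avoid.visits_eq δ s₀ h, Nat.cast_zero, hr]⟩
    · obtain ⟨h1, a, ha⟩ := mem_LVis δ s₀ h
      refine ⟨h1, ?_⟩
      rw [← hj, ha]
      push_cast
      simp

theorem heightLE_pow {k : ℕ} {L : Language α} (hL : HeightLE k L) (m : ℕ) : HeightLE k (L ^ m) := by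
  induction m with
  | zero => rw [pow_zero]; exact heightLE_one
  | succ m ih => rw [pow_succ]; exact ih.mul hL

theorem LH_starfree_of [Finite α] [Finite Ω] (hA : ∀ p q, HeightLE 0 (LA δ s₀ p q)) (p : Ω) :
    HeightLE 0 (LH δ s₀ p) := by
  have h := heightLE_iUnion (n := 0) (fun xa : Ω × α => δ xa.1 xa.2 = s₀)
    (fun xa => LA δ s₀ p xa.1 * ({[xa.2]} : Language α))
    (fun xa _ => (hA p xa.1).mul (heightLE_char xa.2))
  refine h.of_iff fun w => ?_
  change Hit δ s₀ p w ↔ _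
  rw [hit_iff]
  constructor
  · rintro ⟨x, a, u, rfl, hu, hx⟩
    exact ⟨(x, a), hx, Language.mem_mul.2 ⟨u, hu, [a], rfl, rfl⟩⟩
  · rintro ⟨⟨x, a⟩, hx, hw⟩
    obtain ⟨u, hu, v, hv, rfl⟩ := Language.mem_mul.1 hw
    have : v = [a] := hv
    subst this
    exact ⟨x, a, u, rfl, hu, hx⟩

/-- If all languages of paths avoiding `s₀` are star-free, then the end state and the number of
visits of `s₀` modulo `n` are determined by languages of height at most one. -/
theorem meas_run_visits_of [Finite α] [Finite Ω] (hA : ∀ p q, HeightLE 0 (LA δ s₀ p q))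
    (n : ℕ) [NeZero n] (p : Ω) :
    Meas (fun w : List α => (run δ p w, (visits δ s₀ p w : ZMod n))) := by
  rintro ⟨q, r⟩
  have hA1 := fun p q => (hA p q).mono (Nat.zero_le 1)
  have hH0 := LH_starfree_of δ s₀ hA
  have hH1 := fun p => (hH0 p).mono (Nat.zero_le 1)
  have h1 : HeightLE 1 ({w | w ∈ LA δ s₀ p q ∧ (0 : ZMod n) = r} : Language α) := by
    by_cases hr : (0 : ZMod n) = r
    · exact (hA1 p q).of_iff fun w => ⟨fun h => h.1, fun h => ⟨h, hr⟩⟩
    · exact heightLE_zero.of_iff fun w =>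
        ⟨fun h => absurd h.2 hr, fun h => absurd h (Language.notMem_zero w)⟩
  have h2 := heightLE_iUnion (n := 1) (fun j : Fin n => ((1 + (j : ℕ) : ℕ) : ZMod n) = r)
    (fun j => LVis δ s₀ n p q j)
    (fun j _ => (((hH1 p).mul (heightLE_pow (hH0 s₀) n).kstar).mul
      (heightLE_pow (hH1 s₀) j)).mul (hA1 s₀ q))
  refine (h1.add h2).of_iff fun w => ?_
  change (run δ p w, (visits δ s₀ p w : ZMod n)) = (q, r) ↔ _
  rw [Prod.ext_iff]
  exact visit_iff δ s₀ n p q r w

end Vale.Agent.Lib.P329
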